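import Mathlib

/-! Product-measure expectations on subsets of a finite set and the Park-Pham argument. -/

namespace Vale.Agent.P064

open Finset

variable {α : Type*} [DecidableEq α]

/-- Expectation of `f W` where `W` is the `r`-random subset of `X`. -/
noncomputable def expect (r : ℝ) (X : Finset α) (f : Finset α → ℝ) : ℝ :=
  ∑ W ∈ X.powerset, r ^ (#W) * (1 - r) ^ (#(X \ W)) * f W

lemma expect_empty (r : ℝ) (f : Finset α → ℝ) : expect r ∅ f = f ∅ := by
  simp [expect]

lemma expect_insert (r : ℝ) {a : α} {X : Finset α} (ha : a ∉ X) (f : Finset α → ℝ) :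
    expect r (insert a X) f =
      (1 - r) * expect r X f + r * expect r X (fun W => f (insert a W)) := by
  unfold expect
  rw [Finset.sum_powerset_insert ha, Finset.mul_sum, Finset.mul_sum]
  congr 1
  · apply Finset.sum_congr rfl
    intro W hW
    have hWX : W ⊆ X := Finset.mem_powerset.1 hW
    have haW : a ∉ W := fun h => ha (hWX h)
    have h1 : (insert a X) \ W = insert a (X \ W) := by
      rw [Finset.insert_sdiff_of_notMem _ haW]
    rw [h1, Finset.card_insert_of_notMem (by simp [ha])]
    ring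
  · apply Finset.sum_congr rfl
    intro W hW
    have hWX : W ⊆ X := Finset.mem_powerset.1 hW
    have haW : a ∉ W := fun h => ha (hWX h)
    have h1 : (insert a X) \ (insert a W) = X \ W := by
      ext x
      simp only [Finset.mem_sdiff, Finset.mem_insert, not_or]
      constructor
      · rintro ⟨h1 | h1, h2, h3⟩
        · exact absurd h1 h2
        · exact ⟨h1, h3⟩
      · rintro ⟨h1, h2⟩
        refine ⟨Or.inr h1, ?_, h2⟩
        rintro rfl
        exact ha h1
    rw [h1, Finset.card_insert_of_notMem haW]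
    ring

lemma expect_add (r : ℝ) (X : Finset α) (f g : Finset α → ℝ) :
    expect r X (fun W => f W + g W) = expect r X f + expect r X g := by
  unfold expect
  rw [← Finset.sum_add_distrib]
  apply Finset.sum_congr rfl
  intros; ring

lemma expect_mul_left (r : ℝ) (X : Finset α) (c : ℝ) (f : Finset α → ℝ) :
    expect r X (fun W => c * f W) = c * expect r X f := by
  unfold expect
  rw [Finset.mul_sum]
  apply Finset.sum_congr rfl
  intros; ring

lemma expect_congr (r : ℝ) (X : Finset α) {f g : Finset α → ℝ}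
    (h : ∀ W, W ⊆ X → f W = g W) : expect r X f = expect r X g := by
  unfold expect
  apply Finset.sum_congr rfl
  intro W hW
  rw [h W (Finset.mem_powerset.1 hW)]

lemma expect_mono {r : ℝ} (h0 : 0 ≤ r) (h1 : r ≤ 1) (X : Finset α) {f g : Finset α → ℝ}
    (h : ∀ W, W ⊆ X → f W ≤ g W) : expect r X f ≤ expect r X g := by
  unfold expect
  apply Finset.sum_le_sum
  intro W hW
  apply mul_le_mul_of_nonneg_left (h W (Finset.mem_powerset.1 hW))
  apply mul_nonneg (pow_nonneg h0 _) (pow_nonneg (by linarith) _)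

lemma expect_const (r : ℝ) (X : Finset α) (c : ℝ) : expect r X (fun _ => c) = c := by
  induction X using Finset.induction_on with
  | empty => simp [expect_empty]
  | insert a X ha ih => rw [expect_insert r ha, ih]; ring

lemma expect_union (r R : ℝ) (X : Finset α) (f : Finset α → ℝ) :
    expect r X (fun W₁ => expect R X (fun W₂ => f (W₁ ∪ W₂))) =
      expect (1 - (1 - r) * (1 - R)) X f := by
  induction X using Finset.induction_on generalizing f with
  | empty => simp [expect_empty]
  | insert a X ha ih =>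
    rw [expect_insert r ha, expect_insert _ ha]
    have e1 : ∀ W₁ : Finset α, expect R (insert a X) (fun W₂ => f (W₁ ∪ W₂)) =
        (1 - R) * expect R X (fun W₂ => f (W₁ ∪ W₂)) +
          R * expect R X (fun W₂ => (fun W => f (insert a W)) (W₁ ∪ W₂)) := by
      intro W₁
      rw [expect_insert R ha]
      congr 2
      apply expect_congr
      intro W _
      simp [Finset.union_insert]
    have e2 : ∀ W₁ : Finset α, expect R (insert a X) (fun W₂ => f (insert a W₁ ∪ W₂)) =
        expect R X (fun W₂ => (fun W => f (insert a W)) (W₁ ∪ W₂)) := by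
      intro W₁
      rw [expect_insert R ha]
      have : expect R X (fun W => f (insert a W₁ ∪ insert a W)) =
          expect R X (fun W₂ => f (insert a W₁ ∪ W₂)) := by
        apply expect_congr
        intro W _
        congr 1
        simp [Finset.insert_union, Finset.union_insert]
      rw [this]
      have h2 : expect R X (fun W₂ => f (insert a W₁ ∪ W₂)) =
          expect R X (fun W₂ => (fun W => f (insert a W)) (W₁ ∪ W₂)) := by
        apply expect_congr
        intro W _
        simp [Finset.insert_union]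
      rw [← h2]; ring
    have e3 : expect r X (fun W₁ => expect R (insert a X) (fun W₂ => f (W₁ ∪ W₂))) =
        (1 - R) * expect (1 - (1 - r) * (1 - R)) X f +
          R * expect (1 - (1 - r) * (1 - R)) X (fun W => f (insert a W)) := by
      rw [← ih f, ← ih (fun W => f (insert a W)), ← expect_mul_left, ← expect_mul_left,
        ← expect_add]
      apply expect_congr
      intro W _
      exact e1 W
    have e4 : expect r X (fun W₁ => expect R (insert a X) (fun W₂ => f (insert a W₁ ∪ W₂))) =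
        expect (1 - (1 - r) * (1 - R)) X (fun W => f (insert a W)) := by
      rw [← ih (fun W => f (insert a W))]
      apply expect_congr
      intro W _
      exact e2 W
    rw [e3, e4]; ring

lemma expect_superset (r : ℝ) (X : Finset α) (U : Finset α) (hU : U ⊆ X) :
    expect r X (fun W => if U ⊆ W then 1 else 0) = r ^ (#U) := by
  induction X using Finset.induction_on generalizing U with
  | empty =>
    have : U = ∅ := Finset.subset_empty.1 hU
    subst this
    simp [expect_empty]
  | insert a X ha ih =>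
    rw [expect_insert r ha]
    by_cases haU : a ∈ U
    · have h1 : expect r X (fun W => if U ⊆ W then (1:ℝ) else 0) = 0 := by
        refine Eq.trans (expect_congr r X (g := fun _ => (0:ℝ)) ?_) (expect_const r X (0:ℝ))
        intro W hW
        rw [if_neg]
        intro h
        exact ha (hW (h haU))
      have h2 : expect r X (fun W => if U ⊆ insert a W then (1:ℝ) else 0) =
          expect r X (fun W => if U.erase a ⊆ W then (1:ℝ) else 0) := by
        apply expect_congr
        intro W hW
        have : (U ⊆ insert a W) ↔ (U.erase a ⊆ W) := by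
          rw [Finset.subset_insert_iff]
        simp [this]
      rw [h1, h2, ih (U.erase a) (by
        intro x hx
        rcases Finset.mem_insert.1 (hU (Finset.mem_of_mem_erase hx)) with h | h
        · exact absurd h (Finset.ne_of_mem_erase hx)
        · exact h)]
      rw [Finset.card_erase_of_mem haU]
      have hpos : 0 < #U := Finset.card_pos.2 ⟨a, haU⟩
      obtain ⟨m, hm⟩ : ∃ m, #U = m + 1 := ⟨#U - 1, by omega⟩
      rw [hm]; simp [pow_succ]; ring
    · have hUX : U ⊆ X := by
        intro x hx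
        rcases Finset.mem_insert.1 (hU hx) with h | h
        · exact absurd (h ▸ hx) haU
        · exact h
      have h2 : expect r X (fun W => if U ⊆ insert a W then (1:ℝ) else 0) =
          expect r X (fun W => if U ⊆ W then (1:ℝ) else 0) := by
        apply expect_congr
        intro W hW
        have : (U ⊆ insert a W) ↔ (U ⊆ W) := by
          rw [Finset.subset_insert_iff_of_notMem haU]
        simp [this]
      rw [h2, ih U hUX]; ring

/-- The minimum fragments of the family `H` with respect to `W`. -/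
noncomputable def frags (H : Finset (Finset α)) (W : Finset α) : Finset (Finset α) :=
  (H.filter (fun S => ∀ S' ∈ H, S' ⊆ W ∪ S → #(S \ W) ≤ #(S' \ W))).image (fun S => S \ W)

lemma mem_frags {H : Finset (Finset α)} {W T : Finset α} :
    T ∈ frags H W ↔ ∃ S ∈ H, (∀ S' ∈ H, S' ⊆ W ∪ S → #(S \ W) ≤ #(S' \ W)) ∧ S \ W = T := by
  unfold frags
  simp only [Finset.mem_image, Finset.mem_filter]
  constructor
  · rintro ⟨S, ⟨h1, h2⟩, h3⟩; exact ⟨S, h1, h2, h3⟩
  · rintro ⟨S, h1, h2, h3⟩; exact ⟨S, ⟨h1, h2⟩, h3⟩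

lemma exists_frag {H : Finset (Finset α)} {W S : Finset α} (hS : S ∈ H) :
    ∃ T ∈ frags H W, T ⊆ S := by
  classical
  obtain ⟨S', hS', hmin⟩ := Finset.exists_min_image (H.filter (fun S' => S' ⊆ W ∪ S))
    (fun S' => #(S' \ W)) ⟨S, by simp [hS]⟩
  rw [Finset.mem_filter] at hS'
  refine ⟨S' \ W, ?_, ?_⟩
  · rw [mem_frags]
    refine ⟨S', hS'.1, ?_, rfl⟩
    intro S'' hS'' hsub
    apply hmin
    rw [Finset.mem_filter]
    refine ⟨hS'', ?_⟩
    intro x hx
    rcases Finset.mem_union.1 (hsub hx) with h | h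
    · exact Finset.mem_union_left _ h
    · exact hS'.2 h
  · intro x hx
    rw [Finset.mem_sdiff] at hx
    rcases Finset.mem_union.1 (hS'.2 hx.1) with h | h
    · exact absurd h hx.2
    · exact h

lemma frag_subset_of {H : Finset (Finset α)} {W T S₀ : Finset α} (hT : T ∈ frags H W)
    (hS₀ : S₀ ∈ H) (hsub : S₀ ⊆ W ∪ T) : T ⊆ S₀ := by
  rw [mem_frags] at hT
  obtain ⟨S, hS, hmin, rfl⟩ := hT
  have h1 : #(S \ W) ≤ #(S₀ \ W) := by
    apply hmin S₀ hS₀
    intro x hx
    rcases Finset.mem_union.1 (hsub hx) with h | h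
    · exact Finset.mem_union_left _ h
    · exact Finset.mem_union_right _ (Finset.mem_sdiff.1 h).1
  have h2 : S₀ \ W ⊆ S \ W := by
    intro x hx
    rw [Finset.mem_sdiff] at hx
    rcases Finset.mem_union.1 (hsub hx.1) with h | h
    · exact absurd h hx.2
    · exact h
  have h3 : S₀ \ W = S \ W := Finset.eq_of_subset_of_card_le h2 h1
  rw [← h3]
  exact Finset.sdiff_subset

/-- Cost bound for large fragments. -/
lemma expect_cost_large {p : ℝ} (hp : 0 < p) (hp1 : 64 * p ≤ 1) (X : Finset α) (k : ℕ)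
    (H : Finset (Finset α)) (hX : ∀ S ∈ H, S ⊆ X) (hk : ∀ S ∈ H, #S < 2 ^ (k + 1)) :
    expect (64 * p) X (fun W => ∑ T ∈ (frags H W).filter (fun T => 2 ^ k ≤ #T), p ^ (#T)) ≤
      (1 / 4 : ℝ) ^ (2 ^ (k + 1)) := by
  classical
  have hr0 : 0 ≤ 64 * p := by linarith
  have h1r : 0 ≤ 1 - 64 * p := by linarith
  -- bound for fixed Z
  have hZ : ∀ Z : Finset α, ∑ T ∈ Z.powerset.filter
      (fun T => T ∈ (frags H (Z \ T)).filter (fun T => 2 ^ k ≤ #T)), (1 / 64 : ℝ) ^ (#T) ≤
        (1 / 4 : ℝ) ^ (2 ^ (k + 1)) := by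
    intro Z
    by_cases hne : (Z.powerset.filter
      (fun T => T ∈ (frags H (Z \ T)).filter (fun T => 2 ^ k ≤ #T))).Nonempty
    · obtain ⟨T₁, hT₁⟩ := hne
      rw [Finset.mem_filter, Finset.mem_filter, Finset.mem_powerset] at hT₁
      obtain ⟨hT₁Z, hT₁f, hT₁c⟩ := hT₁
      obtain ⟨S₀, hS₀, -, hS₀T⟩ := mem_frags.1 hT₁f
      have hS₀Z : S₀ ⊆ Z := by
        intro x hx
        by_cases hxW : x ∈ Z \ T₁
        · exact (Finset.mem_sdiff.1 hxW).1
        · have : x ∈ S₀ \ (Z \ T₁) := Finset.mem_sdiff.2 ⟨hx, hxW⟩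
          rw [hS₀T] at this
          exact hT₁Z this
      have hsub : Z.powerset.filter
          (fun T => T ∈ (frags H (Z \ T)).filter (fun T => 2 ^ k ≤ #T)) ⊆
          S₀.powerset.filter (fun T => 2 ^ k ≤ #T) := by
        intro T hT
        rw [Finset.mem_filter, Finset.mem_filter, Finset.mem_powerset] at hT
        rw [Finset.mem_filter, Finset.mem_powerset]
        refine ⟨?_, hT.2.2⟩
        apply frag_subset_of hT.2.1 hS₀
        intro x hx
        by_cases hxT : x ∈ T
        · exact Finset.mem_union_right _ hxT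
        · exact Finset.mem_union_left _ (Finset.mem_sdiff.2 ⟨hS₀Z hx, hxT⟩)
      calc ∑ T ∈ Z.powerset.filter
                (fun T => T ∈ (frags H (Z \ T)).filter (fun T => 2 ^ k ≤ #T)), (1 / 64 : ℝ) ^ (#T)
          ≤ ∑ T ∈ S₀.powerset.filter (fun T => 2 ^ k ≤ #T), (1 / 64 : ℝ) ^ (#T) := by
            apply Finset.sum_le_sum_of_subset_of_nonneg hsub
            intros; positivity
        _ ≤ ∑ T ∈ S₀.powerset.filter (fun T => 2 ^ k ≤ #T), (1 / 64 : ℝ) ^ (2 ^ k) := by
            apply Finset.sum_le_sum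
            intro T hT
            rw [Finset.mem_filter] at hT
            exact pow_le_pow_of_le_one (by norm_num) (by norm_num) hT.2
        _ = (#(S₀.powerset.filter (fun T => 2 ^ k ≤ #T)) : ℝ) * (1 / 64 : ℝ) ^ (2 ^ k) := by
            rw [Finset.sum_const, nsmul_eq_mul]
        _ ≤ (2 ^ (2 ^ (k + 1)) : ℝ) * (1 / 64 : ℝ) ^ (2 ^ k) := by
            apply mul_le_mul_of_nonneg_right _ (by positivity)
            have h1 : #(S₀.powerset.filter (fun T => 2 ^ k ≤ #T)) ≤ 2 ^ (#S₀) := by
              calc _ ≤ #(S₀.powerset) := Finset.card_filter_le _ _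
                _ = 2 ^ (#S₀) := Finset.card_powerset _
            have h2 : 2 ^ (#S₀) ≤ 2 ^ (2 ^ (k + 1)) :=
              Nat.pow_le_pow_right (by norm_num) (le_of_lt (hk S₀ hS₀))
            exact_mod_cast h1.trans h2
        _ = (1 / 4 : ℝ) ^ (2 ^ (k + 1)) := by
            rw [pow_succ 2 k, mul_comm (2 ^ k) 2, pow_mul, pow_mul, ← mul_pow]
            norm_num
    · rw [Finset.not_nonempty_iff_eq_empty] at hne
      rw [hne]; simp
  unfold expect
  -- rewrite the sum
  have hpair : ∀ W ∈ X.powerset, ∀ T ∈ (frags H W).filter (fun T => 2 ^ k ≤ #T),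
      T ⊆ X ∧ Disjoint W T := by
    intro W _ T hT
    rw [Finset.mem_filter, mem_frags] at hT
    obtain ⟨⟨S, hS, -, rfl⟩, -⟩ := hT
    exact ⟨Finset.sdiff_subset.trans (hX S hS), Finset.disjoint_sdiff⟩
  calc ∑ W ∈ X.powerset, (64 * p) ^ (#W) * (1 - 64 * p) ^ (#(X \ W)) *
          ∑ T ∈ (frags H W).filter (fun T => 2 ^ k ≤ #T), p ^ (#T)
      = ∑ W ∈ X.powerset, ∑ T ∈ (frags H W).filter (fun T => 2 ^ k ≤ #T),
        (64 * p) ^ (#W) * (1 - 64 * p) ^ (#(X \ W)) * p ^ (#T) := by
        apply Finset.sum_congr rfl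
        intro W _
        rw [Finset.mul_sum]
    _ ≤ ∑ W ∈ X.powerset, ∑ T ∈ (frags H W).filter (fun T => 2 ^ k ≤ #T),
        (64 * p) ^ (#(W ∪ T)) * (1 - 64 * p) ^ (#(X \ (W ∪ T))) * (1 / 64) ^ (#T) := by
        apply Finset.sum_le_sum
        intro W hW
        apply Finset.sum_le_sum
        intro T hT
        obtain ⟨hTX, hdisj⟩ := hpair W hW T hT
        have hWX : W ⊆ X := Finset.mem_powerset.1 hW
        have hc1 : #(W ∪ T) = #W + #T := Finset.card_union_of_disjoint hdisj
        have hc2 : #(X \ W) = #(X \ (W ∪ T)) + #T := by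
          have h1 : #(X \ W) = #X - #W := Finset.card_sdiff_of_subset hWX
          have h2 : #(X \ (W ∪ T)) = #X - #(W ∪ T) :=
            Finset.card_sdiff_of_subset (Finset.union_subset hWX hTX)
          have h3 : #(W ∪ T) ≤ #X := Finset.card_le_card (Finset.union_subset hWX hTX)
          omega
        rw [hc1, hc2, pow_add, pow_add]
        have e1 : (64 * p) ^ (#T) * (1 / 64) ^ (#T) = p ^ (#T) := by
          rw [← mul_pow]; congr 1; ring
        have e2 : (1 - 64 * p) ^ (#T) ≤ 1 := pow_le_one₀ h1r (by linarith)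
        calc (64 * p) ^ (#W) * ((1 - 64 * p) ^ (#(X \ (W ∪ T))) * (1 - 64 * p) ^ (#T)) * p ^ (#T)
            ≤ (64 * p) ^ (#W) * ((1 - 64 * p) ^ (#(X \ (W ∪ T))) * 1) * p ^ (#T) := by
              gcongr
          _ = (64 * p) ^ (#W) * (64 * p) ^ (#T) * (1 - 64 * p) ^ (#(X \ (W ∪ T))) *
              (1 / 64) ^ (#T) := by
              rw [← e1]; ring
    _ = ∑ Z ∈ X.powerset, ∑ T ∈ Z.powerset.filter
        (fun T => T ∈ (frags H (Z \ T)).filter (fun T => 2 ^ k ≤ #T)),
        (64 * p) ^ (#Z) * (1 - 64 * p) ^ (#(X \ Z)) * (1 / 64) ^ (#T) := by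
        rw [Finset.sum_sigma', Finset.sum_sigma']
        apply Finset.sum_bij' (fun x _ => (⟨x.1 ∪ x.2, x.2⟩ : (_ : Finset α) × Finset α))
          (fun x _ => (⟨x.1 \ x.2, x.2⟩ : (_ : Finset α) × Finset α))
        · rintro ⟨W, T⟩ h
          rw [Finset.mem_sigma] at h
          obtain ⟨hTX, hdisj⟩ := hpair W h.1 T h.2
          have hWX : W ⊆ X := Finset.mem_powerset.1 h.1
          rw [Finset.mem_sigma]
          refine ⟨Finset.mem_powerset.2 (Finset.union_subset hWX hTX), ?_⟩
          simp only [Finset.mem_filter, Finset.mem_powerset]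
          have : (W ∪ T) \ T = W := by
            rw [Finset.union_sdiff_right]
            exact Finset.sdiff_eq_self_of_disjoint hdisj
          rw [this]
          exact ⟨Finset.subset_union_right, Finset.mem_filter.1 h.2⟩
        · rintro ⟨Z, T⟩ h
          rw [Finset.mem_sigma, Finset.mem_filter] at h
          rw [Finset.mem_sigma]
          refine ⟨Finset.mem_powerset.2 (Finset.sdiff_subset.trans (Finset.mem_powerset.1 h.1)), ?_⟩
          exact h.2.2
        · rintro ⟨W, T⟩ h
          rw [Finset.mem_sigma] at h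
          obtain ⟨hTX, hdisj⟩ := hpair W h.1 T h.2
          have : (W ∪ T) \ T = W := by
            rw [Finset.union_sdiff_right]
            exact Finset.sdiff_eq_self_of_disjoint hdisj
          simp [this]
        · rintro ⟨Z, T⟩ h
          rw [Finset.mem_sigma, Finset.mem_filter] at h
          have hTZ : T ⊆ Z := Finset.mem_powerset.1 h.2.1
          have : Z \ T ∪ T = Z := Finset.sdiff_union_of_subset hTZ
          simp [this]
        · rintro ⟨W, T⟩ h
          rfl
    _ = ∑ Z ∈ X.powerset, (64 * p) ^ (#Z) * (1 - 64 * p) ^ (#(X \ Z)) *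
        ∑ T ∈ Z.powerset.filter
        (fun T => T ∈ (frags H (Z \ T)).filter (fun T => 2 ^ k ≤ #T)), (1 / 64) ^ (#T) := by
        apply Finset.sum_congr rfl
        intro Z _
        rw [Finset.mul_sum]
    _ ≤ ∑ Z ∈ X.powerset, (64 * p) ^ (#Z) * (1 - 64 * p) ^ (#(X \ Z)) *
        (1 / 4 : ℝ) ^ (2 ^ (k + 1)) := by
        apply Finset.sum_le_sum
        intro Z _
        apply mul_le_mul_of_nonneg_left (hZ Z)
        positivity
    _ = (1 / 4 : ℝ) ^ (2 ^ (k + 1)) := by
        have := expect_const (64 * p) X ((1 / 4 : ℝ) ^ (2 ^ (k + 1)))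
        unfold expect at this
        exact this

/-- Park-Pham: a family of sets of size `< 2^k`, all of whose covers have cost at least `c`. -/
theorem parkPham {p : ℝ} (hp : 0 < p) (hp1 : 64 * p ≤ 1) (X : Finset α) (k : ℕ) :
    ∀ (H : Finset (Finset α)), (∀ S ∈ H, S ⊆ X) → (∀ S ∈ H, #S < 2 ^ k) →
    ∀ c : ℝ, (∀ G : Finset (Finset α), (∀ S ∈ H, ∃ U ∈ G, U ⊆ S) → c ≤ ∑ U ∈ G, p ^ (#U)) →
    expect (1 - (1 - 64 * p) ^ k) X (fun W => if ∃ S ∈ H, S ⊆ W then 0 else 1) ≤
      1 - c + ∑ j ∈ Finset.range k, (1 / 4 : ℝ) ^ (2 ^ (j + 1)) := by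
  classical
  induction k with
  | zero =>
    intro H hX hk c hc
    simp only [pow_zero, Finset.range_zero, Finset.sum_empty, add_zero]
    by_cases hH : (∅ : Finset α) ∈ H
    · have h1 : c ≤ 1 := by
        have := hc {∅} (fun S _ => ⟨∅, by simp, Finset.empty_subset _⟩)
        simpa using this
      have h2 : expect (1 - 1) X (fun W => if ∃ S ∈ H, S ⊆ W then (0:ℝ) else 1) = 0 := by
        refine Eq.trans (expect_congr _ X (g := fun _ => (0:ℝ)) ?_) (expect_const _ X (0:ℝ))
        intro W _
        rw [if_pos ⟨∅, hH, Finset.empty_subset _⟩]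
      rw [h2]; linarith
    · have hHe : H = ∅ := by
        apply Finset.eq_empty_of_forall_notMem
        intro S hS
        have : #S < 1 := by simpa using hk S hS
        have : S = ∅ := Finset.card_eq_zero.1 (by omega)
        exact hH (this ▸ hS)
      have h1 : c ≤ 0 := by
        have := hc ∅ (fun S hS => by simp [hHe] at hS)
        simpa using this
      have h2 : expect (1 - 1) X (fun W => if ∃ S ∈ H, S ⊆ W then (0:ℝ) else 1) ≤ 1 := by
        refine le_trans (expect_mono (g := fun _ => (1:ℝ)) (by norm_num) (by norm_num) X ?_)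
          (expect_const _ X (1:ℝ)).le
        intro W _
        split_ifs <;> norm_num
      linarith
  | succ k ih =>
    intro H hX hk c hc
    have hr0 : 0 ≤ 64 * p := by linarith
    have h1r : 0 ≤ 1 - 64 * p := by linarith
    have hρ0 : 0 ≤ 1 - (1 - 64 * p) ^ k := by
      have := pow_le_one₀ (n := k) h1r (by linarith)
      linarith
    have hρ1 : 1 - (1 - 64 * p) ^ k ≤ 1 := by
      have := pow_nonneg h1r k
      linarith
    have hdens : 1 - (1 - 64 * p) ^ (k + 1) =
        1 - (1 - 64 * p) * (1 - (1 - (1 - 64 * p) ^ k)) := by ring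
    rw [hdens, ← expect_union]
    have hstep : ∀ W : Finset α, W ⊆ X →
        expect (1 - (1 - 64 * p) ^ k) X
          (fun W₂ => if ∃ S ∈ H, S ⊆ W ∪ W₂ then (0:ℝ) else 1) ≤
        (1 - c + ∑ j ∈ Finset.range k, (1 / 4 : ℝ) ^ (2 ^ (j + 1))) +
          ∑ T ∈ (frags H W).filter (fun T => 2 ^ k ≤ #T), p ^ (#T) := by
      intro W hW
      set H' := (frags H W).filter (fun T => #T < 2 ^ k) with hH'
      set G₀ := (frags H W).filter (fun T => 2 ^ k ≤ #T) with hG₀
      have hX' : ∀ T ∈ H', T ⊆ X := by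
        intro T hT
        rw [hH', Finset.mem_filter, mem_frags] at hT
        obtain ⟨⟨S, hS, -, rfl⟩, -⟩ := hT
        exact Finset.sdiff_subset.trans (hX S hS)
      have hk' : ∀ T ∈ H', #T < 2 ^ k := by
        intro T hT
        exact (Finset.mem_filter.1 hT).2
      have hc' : ∀ G : Finset (Finset α), (∀ S ∈ H', ∃ U ∈ G, U ⊆ S) →
          c - ∑ T ∈ G₀, p ^ (#T) ≤ ∑ U ∈ G, p ^ (#U) := by
        intro G hG
        have := hc (G ∪ G₀) (by
          intro S hS
          obtain ⟨T, hT, hTS⟩ := exists_frag (W := W) hS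
          by_cases hTc : #T < 2 ^ k
          · obtain ⟨U, hU, hUT⟩ := hG T (Finset.mem_filter.2 ⟨hT, hTc⟩)
            exact ⟨U, Finset.mem_union_left _ hU, hUT.trans hTS⟩
          · exact ⟨T, Finset.mem_union_right _ (Finset.mem_filter.2 ⟨hT, not_lt.1 hTc⟩), hTS⟩)
        have h2 : ∑ U ∈ G ∪ G₀, p ^ (#U) ≤ ∑ U ∈ G, p ^ (#U) + ∑ U ∈ G₀, p ^ (#U) := by
          have h3 := Finset.sum_union_inter (s₁ := G) (s₂ := G₀) (f := fun U => p ^ (#U))
          have h4 : 0 ≤ ∑ U ∈ G ∩ G₀, p ^ (#U) := Finset.sum_nonneg (fun _ _ => by positivity)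
          linarith
        linarith
      have := ih H' hX' hk' _ hc'
      calc expect (1 - (1 - 64 * p) ^ k) X
              (fun W₂ => if ∃ S ∈ H, S ⊆ W ∪ W₂ then (0:ℝ) else 1)
          ≤ expect (1 - (1 - 64 * p) ^ k) X
              (fun W₂ => if ∃ S ∈ H', S ⊆ W₂ then (0:ℝ) else 1) := by
            apply expect_mono hρ0 hρ1
            intro W₂ _
            by_cases h : ∃ S ∈ H', S ⊆ W₂
            · have hex : ∃ S ∈ H, S ⊆ W ∪ W₂ := by
                obtain ⟨T, hT, hTW⟩ := h
                rw [hH', Finset.mem_filter, mem_frags] at hT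
                obtain ⟨⟨S, hS, -, rfl⟩, -⟩ := hT
                refine ⟨S, hS, ?_⟩
                intro x hx
                by_cases hxW : x ∈ W
                · exact Finset.mem_union_left _ hxW
                · exact Finset.mem_union_right _ (hTW (Finset.mem_sdiff.2 ⟨hx, hxW⟩))
              rw [if_pos hex, if_pos h]
            · rw [if_neg h]
              split_ifs <;> norm_num
        _ ≤ _ := this
        _ = _ := by ring
    calc expect (64 * p) X (fun W₁ => expect (1 - (1 - 64 * p) ^ k) X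
          (fun W₂ => (fun W => if ∃ S ∈ H, S ⊆ W then (0:ℝ) else 1) (W₁ ∪ W₂)))
        ≤ expect (64 * p) X (fun W =>
          (1 - c + ∑ j ∈ Finset.range k, (1 / 4 : ℝ) ^ (2 ^ (j + 1))) +
          ∑ T ∈ (frags H W).filter (fun T => 2 ^ k ≤ #T), p ^ (#T)) := by
          apply expect_mono hr0 (by linarith)
          intro W hW
          exact hstep W hW
      _ = (1 - c + ∑ j ∈ Finset.range k, (1 / 4 : ℝ) ^ (2 ^ (j + 1))) +
          expect (64 * p) X (fun W =>
            ∑ T ∈ (frags H W).filter (fun T => 2 ^ k ≤ #T), p ^ (#T)) := by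
          rw [expect_add, expect_const]
      _ ≤ (1 - c + ∑ j ∈ Finset.range k, (1 / 4 : ℝ) ^ (2 ^ (j + 1))) +
          (1 / 4 : ℝ) ^ (2 ^ (k + 1)) := by
          have := expect_cost_large hp hp1 X k H hX hk
          linarith
      _ = 1 - c + ∑ j ∈ Finset.range (k + 1), (1 / 4 : ℝ) ^ (2 ^ (j + 1)) := by
          rw [Finset.sum_range_succ]; ring

lemma sum_quarter_le (k : ℕ) : ∑ j ∈ Finset.range k, (1 / 4 : ℝ) ^ (2 ^ (j + 1)) ≤ 1 / 2 := by
  have h1 : ∀ j : ℕ, (1 / 4 : ℝ) ^ (2 ^ (j + 1)) ≤ (1 / 4 : ℝ) * (1 / 2) ^ j := by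
    intro j
    have h2 : j + 1 ≤ 2 ^ (j + 1) := (Nat.lt_two_pow_self).le
    calc (1 / 4 : ℝ) ^ (2 ^ (j + 1)) ≤ (1 / 4 : ℝ) ^ (j + 1) :=
          pow_le_pow_of_le_one (by norm_num) (by norm_num) h2
      _ = (1 / 4 : ℝ) * (1 / 4) ^ j := by rw [pow_succ]; ring
      _ ≤ (1 / 4 : ℝ) * (1 / 2) ^ j := by
          gcongr
          norm_num
  calc ∑ j ∈ Finset.range k, (1 / 4 : ℝ) ^ (2 ^ (j + 1))
      ≤ ∑ j ∈ Finset.range k, (1 / 4 : ℝ) * (1 / 2) ^ j := Finset.sum_le_sum (fun j _ => h1 j)
    _ = (1 / 4 : ℝ) * ∑ j ∈ Finset.range k, (1 / 2 : ℝ) ^ j := by rw [Finset.mul_sum]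
    _ ≤ (1 / 4 : ℝ) * 2 := by
        gcongr
        rw [geom_sum_eq (by norm_num)]
        have : (0:ℝ) < (1 / 2) ^ k := by positivity
        rw [div_le_iff_of_neg (by norm_num)]
        linarith
    _ = 1 / 2 := by norm_num

end Vale.Agent.P064
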