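import Vale.Agent.P064.Count

/-! The step from a closed set to the next one, and the total count. -/

namespace Vale.Agent.P064

open Finset

section step

variable {V W : Type*} [Fintype V] [DecidableEq V] [Fintype W] [DecidableEq W]
  (F : SimpleGraph V) [DecidableRel F.Adj] (H : SimpleGraph W) [DecidableRel H.Adj]

/-- every exploration step adds an edge -/
lemma edges_ge {N q : ℝ} (hN : 0 < N) (hq : 0 < q) (hq1 : q ≤ 1)
    {U U' : Finset V} (hU : IsCl (wt F N q) U)
    (hR : ∀ T, U ⊂ T → T ⊂ U' → wt F N q U' < wt F N q T) :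
    ∀ (m : ℕ) (U₁ : Finset V), U ⊂ U₁ → U₁ ⊆ U' → #(U' \ U₁) = m →
      m + eIn F U₁ ≤ eIn F U' := by
  classical
  intro m
  induction m with
  | zero =>
    intro U₁ _ hU₁ _
    simpa using eIn_mono F hU₁
  | succ m ih =>
    intro U₁ hUU₁ hU₁ hm
    have hssub : U₁ ⊂ U' := by
      refine Finset.ssubset_iff_subset_ne.2 ⟨hU₁, ?_⟩
      rintro rfl
      simp at hm
    obtain ⟨p, hp⟩ := bdry_nonempty F hN hq hq1 hU hUU₁ hssub (hR U₁ hUU₁ hssub)
    unfold bdry at hp
    rw [Finset.mem_filter] at hp
    obtain ⟨hpU₁, z, hz, hadj⟩ := hp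
    have hzU₁ : z ∉ U₁ := (Finset.mem_sdiff.1 hz).2
    have hzU' : z ∈ U' := (Finset.mem_sdiff.1 hz).1
    have hcard : #(U' \ insert z U₁) = m := by
      have h1 : U' \ insert z U₁ = (U' \ U₁).erase z := by
        ext x
        simp only [Finset.mem_sdiff, Finset.mem_insert, Finset.mem_erase, not_or]
        tauto
      rw [h1, Finset.card_erase_of_mem hz]
      omega
    have h2 := ih (insert z U₁) (lt_of_lt_of_le hUU₁ (Finset.subset_insert _ _))
      (by
        intro y hy
        rcases Finset.mem_insert.1 hy with h | h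
        · rw [h]; exact hzU'
        · exact hU₁ h) hcard
    have h3 : eIn F U₁ + 1 ≤ eIn F (insert z U₁) := by
      rw [eIn_eq_add_touch F (insert z U₁) {z}]
      have h4 : insert z U₁ \ {z} = U₁ := by
        ext x
        simp only [Finset.mem_sdiff, Finset.mem_insert, Finset.mem_singleton]
        constructor
        · rintro ⟨h | h, h'⟩
          · exact absurd h h'
          · exact h
        · intro h
          exact ⟨Or.inr h, fun h' => hzU₁ (h' ▸ h)⟩
      rw [h4]
      apply Nat.add_le_add_left
      apply Finset.card_pos.2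
      refine ⟨s(p, z), ?_⟩
      unfold touch
      rw [Finset.mem_filter, SimpleGraph.mem_edgeFinset, SimpleGraph.mem_edgeSet]
      refine ⟨hadj, ?_, z, by simp, by simp⟩
      intro v hv
      rw [Sym2.mem_iff] at hv
      rcases hv with rfl | rfl
      · exact Finset.mem_insert_of_mem hpU₁
      · exact Finset.mem_insert_self _ _
    omega

/-- a family of embeddings whose images of `Q` are pairwise disjoint -/
def PD (Q : Finset V) (D : Finset (V → W)) : Prop :=
  ∀ f ∈ D, ∀ g ∈ D, f ≠ g → Disjoint (Q.image f) (Q.image g)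

lemma step_count {M : ℝ} (hM0 : 0 ≤ M) {U U' : Finset V} (hUU' : U ⊂ U')
    (hrig : ∀ w ∈ U' \ U, ∀ φ : V → W,
      (ext F H (insert w U) U' φ : ℝ) ≤ M ^ (#(U' \ U) - 1)) (φ : V → W) :
    ∃ D : Finset (V → W), D ⊆ agr F H U φ ∧ PD (U' \ U) D ∧
      (ext F H U U' φ : ℝ) ≤ #D * (#(U' \ U)) ^ 2 * M ^ (#(U' \ U) - 1) := by
  classical
  set Q := U' \ U with hQ
  have hQne : Q.Nonempty := by
    rw [hQ, Finset.sdiff_nonempty]
    exact fun h => hUU'.2 h
  obtain ⟨D, hD, hDmax⟩ := Finset.exists_max_image
    ((agr F H U φ).powerset.filter (fun D => PD Q D)) (fun D => #D)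
    ⟨∅, by
      rw [Finset.mem_filter]
      refine ⟨by simp, ?_⟩
      intro f hf
      exact absurd hf (Finset.notMem_empty f)⟩
  rw [Finset.mem_filter, Finset.mem_powerset] at hD
  refine ⟨D, hD.1, hD.2, ?_⟩
  set Y := D.biUnion (fun f => Q.image f) with hY
  have hYc : #Y ≤ #D * #Q := by
    calc #Y ≤ ∑ f ∈ D, #(Q.image f) := Finset.card_biUnion_le
      _ ≤ ∑ f ∈ D, #Q := Finset.sum_le_sum (fun f _ => Finset.card_image_le)
      _ = #D * #Q := by rw [Finset.sum_const, smul_eq_mul]
  have hhit : ∀ h ∈ agr F H U φ, ∃ w ∈ Q, h w ∈ Y := by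
    intro h hh
    by_contra hcon
    push Not at hcon
    have hdis : ∀ f ∈ D, Disjoint (Q.image h) (Q.image f) := by
      intro f hf
      rw [Finset.disjoint_left]
      intro x hx hx'
      rw [Finset.mem_image] at hx
      obtain ⟨w, hw, rfl⟩ := hx
      apply hcon w hw
      rw [hY, Finset.mem_biUnion]
      exact ⟨f, hf, hx'⟩
    have hhD : h ∉ D := by
      intro hhD
      have := hdis h hhD
      rw [disjoint_self] at this
      obtain ⟨w, hw⟩ := hQne
      have h2 : h w ∈ Q.image h := Finset.mem_image_of_mem _ hw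
      rw [this] at h2
      exact absurd h2 (Finset.notMem_empty _)
    have hins : insert h D ∈ (agr F H U φ).powerset.filter (fun D => PD Q D) := by
      rw [Finset.mem_filter, Finset.mem_powerset]
      refine ⟨?_, ?_⟩
      · intro f hf
        rcases Finset.mem_insert.1 hf with h1 | h1
        · rw [h1]; exact hh
        · exact hD.1 h1
      · intro f hf g hg hfg
        rcases Finset.mem_insert.1 hf with h1 | h1 <;> rcases Finset.mem_insert.1 hg with h2 | h2
        · exact absurd (h1.trans h2.symm) hfg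
        · rw [h1]; exact hdis g h2
        · rw [h2]; exact (hdis f h1).symm
        · exact hD.2 f h1 g h2 hfg
    have := hDmax _ hins
    rw [Finset.card_insert_of_notMem hhD] at this
    omega
  have hsub : (agr F H U φ).image (fun f => fun v : U' => f v) ⊆
      Q.biUnion (fun w => Y.biUnion (fun y =>
        (agr F H (insert w U) (Function.update φ w y)).image (fun f => fun v : U' => f v))) := by
    intro g hg
    rw [Finset.mem_image] at hg
    obtain ⟨f, hf, rfl⟩ := hg
    obtain ⟨w, hw, hwY⟩ := hhit f hf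
    rw [Finset.mem_biUnion]
    refine ⟨w, hw, ?_⟩
    rw [Finset.mem_biUnion]
    refine ⟨f w, hwY, ?_⟩
    rw [Finset.mem_image]
    exact ⟨f, agr_insert F H (Finset.mem_sdiff.1 hw).2 hf, rfl⟩
  have h1 : (ext F H U U' φ : ℝ) ≤ ∑ w ∈ Q, ∑ y ∈ Y,
      (ext F H (insert w U) U' (Function.update φ w y) : ℝ) := by
    have h2 : ext F H U U' φ ≤ ∑ w ∈ Q, ∑ y ∈ Y,
        ext F H (insert w U) U' (Function.update φ w y) := by
      refine (Finset.card_le_card hsub).trans (Finset.card_biUnion_le.trans ?_)
      apply Finset.sum_le_sum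
      intro w _
      exact Finset.card_biUnion_le
    exact_mod_cast h2
  calc (ext F H U U' φ : ℝ) ≤ ∑ w ∈ Q, ∑ y ∈ Y,
      (ext F H (insert w U) U' (Function.update φ w y) : ℝ) := h1
    _ ≤ ∑ w ∈ Q, ∑ y ∈ Y, M ^ (#Q - 1) := by
        apply Finset.sum_le_sum
        intro w hw
        apply Finset.sum_le_sum
        intro y _
        exact hrig w hw _
    _ = #Q * (#Y * M ^ (#Q - 1)) := by
        rw [Finset.sum_const, Finset.sum_const, nsmul_eq_mul, nsmul_eq_mul]
    _ ≤ #Q * ((#D * #Q) * M ^ (#Q - 1)) := by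
        have : (#Y : ℝ) ≤ #D * #Q := by exact_mod_cast hYc
        gcongr
    _ = #D * (#Q) ^ 2 * M ^ (#Q - 1) := by ring

/-- Total count, given a bound for every closed step. -/
lemma total_count {N q A G : ℝ} (hN : 0 < N) (hq : 0 < q) (hq1 : q ≤ 1)
    (hA : 0 < A) (hG : 0 < G)
    (hstep : ∀ U U' : Finset V, IsCl (wt F N q) U → IsCl (wt F N q) U' → U ⊂ U' →
      (∀ T, U ⊂ T → T ⊂ U' → wt F N q U' < wt F N q T) → ∀ φ : V → W,
      (ext F H U U' φ : ℝ) * (wt F N q U) ≤
        wt F N q U' * A ^ (#U' - #U) * G ^ (eIn F U' - eIn F U)) :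
    ∀ (m : ℕ) (U : Finset V), IsCl (wt F N q) U → Fintype.card V - #U = m → ∀ φ : V → W,
      (#(agr F H U φ) : ℝ) * wt F N q U ≤
        wt F N q univ * A ^ (Fintype.card V - #U) * G ^ (eIn F univ - eIn F U) := by
  classical
  intro m
  induction m using Nat.strong_induction_on with
  | _ m ih =>
    intro U hU hm φ
    by_cases hUu : U = univ
    · subst hUu
      have h1 : #(agr F H univ φ) ≤ 1 := by
        rw [Finset.card_le_one]
        intro f hf g hg
        rw [mem_agr] at hf hg
        funext v
        rw [hf.2 v (Finset.mem_univ v), hg.2 v (Finset.mem_univ v)]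
      have h2 : (#(agr F H univ φ) : ℝ) ≤ 1 := by exact_mod_cast h1
      simp only [Finset.card_univ, Nat.sub_self, pow_zero, mul_one]
      have h3 := wt_pos F hN hq univ
      nlinarith
    · obtain ⟨U', hUU', hU', hmin⟩ := exists_min_cl (wt F N q) hUu
      have hR : ∀ T, U ⊂ T → T ⊂ U' → wt F N q U' < wt F N q T := fun T h1 h2 =>
        rigid_of_min (fun X => wt_pos F hN hq X) (wt_submod F hN hq hq1) hU' hmin h1 h2
      have hcU : #U < #U' := Finset.card_lt_card hUU'
      have hcU' : #U' ≤ Fintype.card V := Finset.card_le_univ U'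
      have hwU' := wt_pos F hN hq U'
      have hrec : ∀ φ' : V → W, (#(agr F H U' φ') : ℝ) ≤
          wt F N q univ * A ^ (Fintype.card V - #U') * G ^ (eIn F univ - eIn F U') /
            wt F N q U' := by
        intro φ'
        rw [le_div_iff₀ hwU']
        exact ih (Fintype.card V - #U') (by omega) U' hU' rfl φ'
      have h1 := agr_card_le F H (U := U) φ hrec
      have h2 := hstep U U' hU hU' hUU' hR φ
      have he1 : eIn F U ≤ eIn F U' := eIn_mono F hUU'.subset
      have he2 : eIn F U' ≤ eIn F univ := eIn_mono F (Finset.subset_univ _)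
      set K := wt F N q univ * A ^ (Fintype.card V - #U') * G ^ (eIn F univ - eIn F U') /
            wt F N q U' with hK
      have hK0 : 0 ≤ K := by
        have := wt_pos F hN hq univ
        positivity
      calc (#(agr F H U φ) : ℝ) * wt F N q U ≤ (ext F H U U' φ * K) * wt F N q U := by
            apply mul_le_mul_of_nonneg_right h1 (wt_pos F hN hq U).le
        _ = (ext F H U U' φ * wt F N q U) * K := by ring
        _ ≤ (wt F N q U' * A ^ (#U' - #U) * G ^ (eIn F U' - eIn F U)) * K :=
            mul_le_mul_of_nonneg_right h2 hK0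
        _ = wt F N q univ * (A ^ (#U' - #U) * A ^ (Fintype.card V - #U')) *
            (G ^ (eIn F U' - eIn F U) * G ^ (eIn F univ - eIn F U')) := by
            rw [hK]; field_simp
        _ = wt F N q univ * A ^ (Fintype.card V - #U) * G ^ (eIn F univ - eIn F U) := by
            rw [← pow_add, ← pow_add]
            congr 2
            · congr 1; omega
            · congr 1; omega

end step

end Vale.Agent.P064
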