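import Vale.Agent.P064.Defs
import Vale.Agent.P064.ParkPham
import Vale.Agent.P064.Step

/-! Expected numbers of copies. -/

namespace Vale.Agent.P064

open Finset SimpleGraph

/-- the potential edges -/
noncomputable def allE (n : ℕ) : Finset (Sym2 (Fin n)) := (⊤ : SimpleGraph (Fin n)).edgeFinset

lemma card_allE (n : ℕ) : #(allE n) = n.choose 2 := by
  unfold allE
  rw [SimpleGraph.card_edgeFinset_top_eq_card_choose_two, Fintype.card_fin]

lemma edgeSet_subset_allE {n : ℕ} (G : SimpleGraph (Fin n)) :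
    G.edgeSet ⊆ (allE n : Set (Sym2 (Fin n))) := by
  unfold allE
  rw [SimpleGraph.coe_edgeFinset]
  exact SimpleGraph.edgeSet_mono le_top

lemma mem_ef {V : Type*} (G : SimpleGraph V) (i : Fintype G.edgeSet) (e : Sym2 V) :
    e ∈ @SimpleGraph.edgeFinset V G i ↔ e ∈ G.edgeSet := SimpleGraph.mem_edgeFinset

open Classical in
lemma sum_graphs (n : ℕ) (p : ℝ) (g : Finset (Sym2 (Fin n)) → ℝ) :
    ∑ G : SimpleGraph (Fin n), gnpWeight n p G * g G.edgeFinset = expect p (allE n) g := by
  unfold expect
  refine Finset.sum_bij' (fun G _ => G.edgeFinset)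
    (fun W _ => SimpleGraph.fromEdgeSet (W : Set (Sym2 (Fin n)))) ?_ ?_ ?_ ?_ ?_
  · intro G _
    rw [Finset.mem_powerset]
    intro e he
    have := edgeSet_subset_allE G (SimpleGraph.mem_edgeFinset.1 he)
    exact_mod_cast this
  · intro W _
    exact Finset.mem_univ _
  · intro G _
    simp
  · intro W hW
    rw [Finset.mem_powerset] at hW
    ext e
    refine (mem_ef _ _ e).trans ?_
    have hset : (SimpleGraph.fromEdgeSet (W : Set (Sym2 (Fin n)))).edgeSet = _ :=
      SimpleGraph.edgeSet_fromEdgeSet _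
    rw [hset]
    simp only [Set.mem_sdiff, Finset.mem_coe]
    constructor
    · exact fun h => h.1
    · intro h
      refine ⟨h, ?_⟩
      have h2 := hW h
      unfold allE at h2
      rw [SimpleGraph.mem_edgeFinset] at h2
      exact SimpleGraph.not_isDiag_of_mem_edgeSet _ h2
  · intro G _
    unfold gnpWeight
    have h1 : G.edgeSet.ncard = #G.edgeFinset := by
      rw [← SimpleGraph.coe_edgeFinset, Set.ncard_coe_finset]
    have hsub : G.edgeFinset ⊆ allE n := by
      intro e he
      have := edgeSet_subset_allE G (SimpleGraph.mem_edgeFinset.1 he)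
      exact_mod_cast this
    rw [h1, Finset.card_sdiff_of_subset hsub, card_allE]

lemma sum_graphs' (n : ℕ) (p : ℝ) (g : SimpleGraph (Fin n) → ℝ) (g' : Finset (Sym2 (Fin n)) → ℝ)
    (h : ∀ (G : SimpleGraph (Fin n)) (W : Finset (Sym2 (Fin n))),
      (W : Set (Sym2 (Fin n))) = G.edgeSet → g G = g' W) :
    ∑ G : SimpleGraph (Fin n), gnpWeight n p G * g G = expect p (allE n) g' := by
  classical
  rw [← sum_graphs]
  apply Finset.sum_congr rfl
  intro G _
  rw [h G G.edgeFinset (SimpleGraph.coe_edgeFinset G)]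

/-- the edges of the image of `J` -/
noncomputable def imE {T : Type*} [Fintype T] {n : ℕ} (J : SimpleGraph T) (f : T → Fin n) :
    Finset (Sym2 (Fin n)) := by
  classical
  exact J.edgeFinset.image (Sym2.map f)

section labelled

variable {T : Type*} [Fintype T] {n : ℕ}

open Classical in
lemma imE_subset_iff (J : SimpleGraph T) (G : SimpleGraph (Fin n)) (f : T → Fin n) :
    imE J f ⊆ G.edgeFinset ↔ ∀ a b, J.Adj a b → G.Adj (f a) (f b) := by
  unfold imE
  constructor
  · intro h a b hab
    have h1 : s(f a, f b) ∈ J.edgeFinset.image (Sym2.map f) := by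
      rw [Finset.mem_image]
      refine ⟨s(a, b), ?_, by rw [Sym2.map_mk]⟩
      rw [mem_ef, SimpleGraph.mem_edgeSet]
      exact hab
    have h2 := h h1
    rw [mem_ef, SimpleGraph.mem_edgeSet] at h2
    exact h2
  · intro h e he
    rw [Finset.mem_image] at he
    obtain ⟨e', he', rfl⟩ := he
    induction e' using Sym2.ind with
    | _ a b =>
      rw [mem_ef, SimpleGraph.mem_edgeSet] at he'
      rw [Sym2.map_mk, mem_ef, SimpleGraph.mem_edgeSet]
      exact h a b he'

open Classical in
lemma card_imE (J : SimpleGraph T) {f : T → Fin n} (hf : Function.Injective f) :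
    #(imE J f) = #J.edgeFinset := by
  unfold imE
  exact Finset.card_image_of_injective _ (Sym2.map.injective hf)

lemma imE_subset_allE (J : SimpleGraph T) {f : T → Fin n} (hf : Function.Injective f) :
    imE J f ⊆ allE n := by
  classical
  unfold imE allE
  intro e he
  rw [Finset.mem_image] at he
  obtain ⟨e', he', rfl⟩ := he
  induction e' using Sym2.ind with
  | _ a b =>
    rw [mem_ef, SimpleGraph.mem_edgeSet] at he'
    rw [Sym2.map_mk, mem_ef, SimpleGraph.mem_edgeSet, SimpleGraph.top_adj]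
    exact fun h => he'.ne (hf h)

open Classical in
lemma labelled_eq (J : SimpleGraph T) (G : SimpleGraph (Fin n)) :
    (G.labelledCopyCount J : ℝ) =
      ∑ f ∈ (univ : Finset (T → Fin n)).filter (fun f => Function.Injective f),
        if imE J f ⊆ G.edgeFinset then (1:ℝ) else 0 := by
  rw [Finset.sum_ite, Finset.sum_const_zero, add_zero, Finset.sum_const, nsmul_eq_mul, mul_one]
  congr 1
  rw [Finset.filter_filter]
  unfold SimpleGraph.labelledCopyCount
  rw [← Fintype.card_subtype]
  refine @Fintype.card_congr _ _ (_) (_) ?_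
  refine ⟨fun f => ⟨f, f.injective, ?_⟩, fun f => ⟨⟨f.1, ?_⟩, f.2.1⟩, ?_, ?_⟩
  · rw [imE_subset_iff]
    intro a b hab
    exact f.toHom.map_adj hab
  · intro a b hab
    exact (imE_subset_iff J G f.1).1 f.2.2 a b hab
  · intro f
    rfl
  · intro f
    rfl

lemma exp_labelled_le (J : SimpleGraph T) {q : ℝ} (hq : 0 ≤ q) {m : ℕ}
    (hm : ∃ E : Finset (Sym2 T), (E : Set (Sym2 T)) = J.edgeSet ∧ #E = m) :
    ∑ G : SimpleGraph (Fin n), gnpWeight n q G * (G.labelledCopyCount J : ℝ) ≤
      (n : ℝ) ^ (Fintype.card T) * q ^ m := by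
  classical
  obtain ⟨E, hE, hEm⟩ := hm
  have hEJ : #J.edgeFinset = m := by
    rw [← hEm]
    congr 1
    ext e
    rw [mem_ef, ← hE, Finset.mem_coe]
  have h1 : ∑ G : SimpleGraph (Fin n), gnpWeight n q G * (G.labelledCopyCount J : ℝ) =
      ∑ f ∈ (univ : Finset (T → Fin n)).filter (fun f => Function.Injective f),
        ∑ G : SimpleGraph (Fin n), gnpWeight n q G *
          (if imE J f ⊆ G.edgeFinset then (1:ℝ) else 0) := by
    rw [Finset.sum_comm]
    apply Finset.sum_congr rfl
    intro G _
    rw [labelled_eq, Finset.mul_sum]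
  rw [h1]
  have h2 : ∀ f ∈ (univ : Finset (T → Fin n)).filter (fun f => Function.Injective f),
      ∑ G : SimpleGraph (Fin n), gnpWeight n q G *
          (if imE J f ⊆ G.edgeFinset then (1:ℝ) else 0)
        = q ^ m := by
    intro f hf
    rw [Finset.mem_filter] at hf
    have hcard : #(imE J f) = m := by
      rw [← hEJ]
      convert card_imE J hf.2
    rw [sum_graphs' n q _ (fun W : Finset (Sym2 (Fin n)) => if imE J f ⊆ W then (1:ℝ) else 0),
      expect_superset _ _ _ (imE_subset_allE J hf.2), hcard]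
    intro G W hW
    have hWG : W = G.edgeFinset := by
      ext e
      rw [mem_ef, ← hW, Finset.mem_coe]
    rw [hWG]
  rw [Finset.sum_congr rfl h2, Finset.sum_const, nsmul_eq_mul]
  apply mul_le_mul_of_nonneg_right _ (pow_nonneg hq _)
  have h3 : #((univ : Finset (T → Fin n)).filter (fun f => Function.Injective f)) ≤
      n ^ (Fintype.card T) := by
    refine (Finset.card_filter_le _ _).trans ?_
    rw [Finset.card_univ, Fintype.card_fun, Fintype.card_fin]
  exact_mod_cast h3

end labelled

/-- automorphisms and unlabelled copies -/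
lemma copyCount_mul_le {T : Type*} [Fintype T] {n : ℕ} (J : SimpleGraph T)
    (G : SimpleGraph (Fin n)) {ι : Type*} [Fintype ι] (Φ : ι → (J ≃g J))
    (hΦ : ∀ i j, (∀ t, Φ i t = Φ j t) → i = j) :
    Fintype.card ι * G.copyCount J ≤ G.labelledCopyCount J := by
  classical
  rw [SimpleGraph.copyCount_eq_card_image_copyToSubgraph]
  have hlab : G.labelledCopyCount J = #(univ : Finset (Copy J G)) := by
    unfold SimpleGraph.labelledCopyCount
    rw [Finset.card_univ]
    exact @Fintype.card_congr _ _ (_) (_) (Equiv.refl (Copy J G))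
  rw [hlab]
  apply Finset.mul_card_image_le_card
  intro S hS
  rw [Finset.mem_image] at hS
  obtain ⟨f, _, rfl⟩ := hS
  rw [← Finset.card_univ (α := ι)]
  apply Finset.card_le_card_of_injOn (fun i => f.comp (Φ i).toCopy)
  · intro i _
    rw [Finset.mem_coe, Finset.mem_filter]
    refine ⟨Finset.mem_univ _, ?_⟩
    unfold Copy.toSubgraph
    ext a b
    · simp only [Subgraph.map_verts, Subgraph.verts_top, Set.image_univ, Set.mem_range]
      constructor
      · rintro ⟨y, rfl⟩
        exact ⟨Φ i y, rfl⟩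
      · rintro ⟨y, rfl⟩
        refine ⟨(Φ i).symm y, ?_⟩
        change f (Φ i ((Φ i).symm y)) = f y
        rw [RelIso.apply_symm_apply]
    · simp only [Subgraph.map_adj, Relation.Map, Subgraph.top_adj]
      constructor
      · rintro ⟨x, y, hxy, rfl, rfl⟩
        exact ⟨Φ i x, Φ i y, (Φ i).map_rel_iff.2 hxy, rfl, rfl⟩
      · rintro ⟨x, y, hxy, rfl, rfl⟩
        refine ⟨(Φ i).symm x, (Φ i).symm y, (Φ i).symm.map_rel_iff.2 hxy, ?_, ?_⟩
        · change f (Φ i ((Φ i).symm x)) = f x
          rw [RelIso.apply_symm_apply]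
        · change f (Φ i ((Φ i).symm y)) = f y
          rw [RelIso.apply_symm_apply]
  · intro i _ j _ hij
    apply hΦ
    intro t
    have h1 : (f.comp (Φ i).toCopy) t = (f.comp (Φ j).toCopy) t := by
      simp only at hij
      rw [hij]
    exact f.injective h1

/-- `copyCount` only depends on the isomorphism class -/
lemma copyCount_congr {V W X : Type*} [Fintype X] (G : SimpleGraph X) {A : SimpleGraph V}
    {B : SimpleGraph W} (e : A ≃g B) : G.copyCount A = G.copyCount B := by
  classical
  unfold SimpleGraph.copyCount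
  congr 1
  ext S
  simp only [Finset.mem_filter, Finset.mem_univ, true_and]
  exact ⟨fun ⟨f⟩ => ⟨e.symm.trans f⟩, fun ⟨f⟩ => ⟨e.trans f⟩⟩

lemma expCopies_congr {V W : Type*} {A : SimpleGraph V} {B : SimpleGraph W} (n : ℕ) (p : ℝ)
    (e : A ≃g B) : expCopies n p A = expCopies n p B := by
  unfold expCopies
  apply Finset.sum_congr rfl
  intro G _
  rw [copyCount_congr G e]

lemma gnpWeight_nonneg {n : ℕ} {p : ℝ} (h0 : 0 ≤ p) (h1 : p ≤ 1) (G : SimpleGraph (Fin n)) :
    0 ≤ gnpWeight n p G := by
  unfold gnpWeight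
  have : 0 ≤ 1 - p := by linarith
  positivity

/-- The general form of the expectation condition. -/
lemma star_general {V : Type*} {H : SimpleGraph V} {n : ℕ} {q : ℝ} (hq : 0 ≤ q) (hq1 : q ≤ 1)
    (hH : ∀ F : H.Subgraph, 1 / 2 ≤ expCopies n q F.coe)
    {T : Type*} [Fintype T] (J : SimpleGraph T) (hJ : J.IsContained H)
    {m : ℕ} (hm : ∃ E : Finset (Sym2 T), (E : Set (Sym2 T)) = J.edgeSet ∧ #E = m)
    {ι : Type*} [Fintype ι] (Φ : ι → (J ≃g J))
    (hΦ : ∀ i j, (∀ t, Φ i t = Φ j t) → i = j) :
    (Fintype.card ι : ℝ) ≤ 2 * ((n : ℝ) ^ (Fintype.card T) * q ^ m) := by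
  classical
  obtain ⟨F, ⟨e⟩⟩ := hJ.exists_iso_subgraph
  have h1 := hH F
  rw [← expCopies_congr n q e] at h1
  have h2 : (Fintype.card ι : ℝ) * expCopies n q J ≤
      ∑ G : SimpleGraph (Fin n), gnpWeight n q G * (G.labelledCopyCount J : ℝ) := by
    unfold expCopies
    rw [Finset.mul_sum]
    apply Finset.sum_le_sum
    intro G _
    have h3 : (Fintype.card ι : ℝ) * (G.copyCount J : ℝ) ≤ (G.labelledCopyCount J : ℝ) := by
      exact_mod_cast copyCount_mul_le J G Φ hΦ
    calc (Fintype.card ι : ℝ) * (gnpWeight n q G * (G.copyCount J : ℝ))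
        = gnpWeight n q G * ((Fintype.card ι : ℝ) * (G.copyCount J : ℝ)) := by ring
      _ ≤ gnpWeight n q G * (G.labelledCopyCount J : ℝ) :=
          mul_le_mul_of_nonneg_left h3 (gnpWeight_nonneg hq hq1 G)
  have h4 := exp_labelled_le (n := n) J hq hm
  have h5 : (Fintype.card ι : ℝ) * (1 / 2) ≤ (Fintype.card ι : ℝ) * expCopies n q J :=
    mul_le_mul_of_nonneg_left h1 (by positivity)
  linarith

end Vale.Agent.P064
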