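import Mathlib

/-! Closed sets of a submodular weight, and edge counts inside vertex sets. -/

namespace Vale.Agent.P064

open Finset

section closure

variable {V : Type*} [Fintype V] [DecidableEq V]

/-- `U` minimises the weight among its supersets. -/
def IsCl (w : Finset V → ℝ) (U : Finset V) : Prop := ∀ X, U ⊆ X → w U ≤ w X

lemma exists_min_cl (w : Finset V → ℝ) {U : Finset V} (hU : U ≠ univ) :
    ∃ U', U ⊂ U' ∧ IsCl w U' ∧ ∀ X, IsCl w X → U ⊂ X → X ⊆ U' → X = U' := by
  classical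
  have huniv : IsCl w (univ : Finset V) := by
    intro X hX
    rw [Finset.univ_subset_iff.1 hX]
  obtain ⟨U', hU', hmin⟩ := Finset.exists_min_image
    ((univ : Finset (Finset V)).filter (fun X => U ⊂ X ∧ IsCl w X)) (fun X => #X)
    ⟨univ, by simp [huniv, Finset.ssubset_univ_iff, hU]⟩
  simp only [Finset.mem_filter, Finset.mem_univ, true_and] at hU' hmin
  refine ⟨U', hU'.1, hU'.2, ?_⟩
  intro X hX hUX hXU'
  exact Finset.eq_of_subset_of_card_le hXU' (hmin X ⟨hUX, hX⟩)

lemma rigid_of_min {w : Finset V → ℝ} (hpos : ∀ X, 0 < w X)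
    (hsub : ∀ A B, w (A ∩ B) * w (A ∪ B) ≤ w A * w B) {U U' : Finset V}
    (hU' : IsCl w U') (hmin : ∀ X, IsCl w X → U ⊂ X → X ⊆ U' → X = U')
    {T : Finset V} (hUT : U ⊂ T) (hTU' : T ⊂ U') : w U' < w T := by
  classical
  obtain ⟨X, hX, hXmin⟩ := Finset.exists_min_image
    ((univ : Finset (Finset V)).filter (fun X => T ⊆ X)) w ⟨T, by simp⟩
  simp only [Finset.mem_filter, Finset.mem_univ, true_and] at hX hXmin
  -- X ∩ U' is also a minimiser
  have h1 : w (X ∩ U') ≤ w X := by
    have h2 := hsub X U'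
    have h3 : w U' ≤ w (X ∪ U') := hU' _ Finset.subset_union_right
    by_contra hcon
    push Not at hcon
    have h4 : w X * w U' < w (X ∩ U') * w (X ∪ U') := by
      calc w X * w U' < w (X ∩ U') * w U' := mul_lt_mul_of_pos_right hcon (hpos _)
        _ ≤ w (X ∩ U') * w (X ∪ U') := mul_le_mul_of_nonneg_left h3 (hpos _).le
    linarith
  have hTX : T ⊆ X ∩ U' := Finset.subset_inter hX hTU'.subset
  have hcl : IsCl w (X ∩ U') := by
    intro Y hY
    exact h1.trans (hXmin Y (hTX.trans hY))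
  have heq : X ∩ U' = U' := hmin _ hcl (lt_of_lt_of_le hUT hTX) Finset.inter_subset_right
  rw [heq] at h1
  have h5 : w X ≤ w T := hXmin T (Finset.Subset.refl _)
  rcases lt_or_eq_of_le (h1.trans h5) with h | h
  · exact h
  · exfalso
    -- then T is closed
    have hclT : IsCl w T := by
      intro Y hY
      rw [← h]
      exact h1.trans (hXmin Y hY)
    have := hmin T hclT hUT hTU'.subset
    exact hTU'.ne this

end closure

section edges

variable {V : Type*} [Fintype V] [DecidableEq V] (F : SimpleGraph V) [DecidableRel F.Adj]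

/-- number of edges of `F` inside `U` -/
def eIn (U : Finset V) : ℕ := #(F.edgeFinset.filter (fun e => ∀ v ∈ e, v ∈ U))

/-- edges of `F` inside `U` touching `Z` -/
def touch (U Z : Finset V) : Finset (Sym2 V) :=
  F.edgeFinset.filter (fun e => (∀ v ∈ e, v ∈ U) ∧ ∃ v ∈ e, v ∈ Z)

lemma eIn_mono {U U' : Finset V} (h : U ⊆ U') : eIn F U ≤ eIn F U' := by
  unfold eIn
  apply Finset.card_le_card
  intro e he
  rw [Finset.mem_filter] at he ⊢
  exact ⟨he.1, fun v hv => h (he.2 v hv)⟩

lemma eIn_eq_add_touch (U Z : Finset V) : eIn F U = eIn F (U \ Z) + #(touch F U Z) := by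
  unfold eIn touch
  rw [← Finset.card_union_of_disjoint]
  · congr 1
    ext e
    simp only [Finset.mem_filter, Finset.mem_union, Finset.mem_sdiff]
    constructor
    · rintro ⟨h1, h2⟩
      by_cases h : ∃ v ∈ e, v ∈ Z
      · exact Or.inr ⟨h1, h2, h⟩
      · push Not at h
        exact Or.inl ⟨h1, fun v hv => ⟨h2 v hv, h v hv⟩⟩
    · rintro (⟨h1, h2⟩ | ⟨h1, h2, _⟩)
      · exact ⟨h1, fun v hv => (h2 v hv).1⟩
      · exact ⟨h1, h2⟩
  · rw [Finset.disjoint_left]
    intro e he he'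
    rw [Finset.mem_filter] at he he'
    obtain ⟨v, hv, hvZ⟩ := he'.2.2
    exact (Finset.mem_sdiff.1 (he.2 v hv)).2 hvZ

lemma eIn_supermodular (A B : Finset V) : eIn F A + eIn F B ≤ eIn F (A ∩ B) + eIn F (A ∪ B) := by
  unfold eIn
  set P := F.edgeFinset.filter (fun e => ∀ v ∈ e, v ∈ A) with hP
  set Q := F.edgeFinset.filter (fun e => ∀ v ∈ e, v ∈ B) with hQ
  have h1 : #P + #Q = #(P ∪ Q) + #(P ∩ Q) := (Finset.card_union_add_card_inter P Q).symm
  rw [h1, add_comm]
  apply Nat.add_le_add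
  · apply Finset.card_le_card
    intro e he
    rw [Finset.mem_inter, hP, hQ, Finset.mem_filter, Finset.mem_filter] at he
    rw [Finset.mem_filter]
    exact ⟨he.1.1, fun v hv => Finset.mem_inter.2 ⟨he.1.2 v hv, he.2.2 v hv⟩⟩
  · apply Finset.card_le_card
    intro e he
    rw [Finset.mem_union, hP, hQ, Finset.mem_filter, Finset.mem_filter] at he
    rw [Finset.mem_filter]
    rcases he with he | he
    · exact ⟨he.1, fun v hv => Finset.mem_union_left _ (he.2 v hv)⟩
    · exact ⟨he.1, fun v hv => Finset.mem_union_right _ (he.2 v hv)⟩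

/-- the weight `(2n)^{|U|} q^{e(U)}` -/
noncomputable def wt (N q : ℝ) (U : Finset V) : ℝ := N ^ (#U) * q ^ (eIn F U)

lemma wt_pos {N q : ℝ} (hN : 0 < N) (hq : 0 < q) (U : Finset V) : 0 < wt F N q U := by
  unfold wt; positivity

lemma wt_submod {N q : ℝ} (hN : 0 < N) (hq : 0 < q) (hq1 : q ≤ 1) (A B : Finset V) :
    wt F N q (A ∩ B) * wt F N q (A ∪ B) ≤ wt F N q A * wt F N q B := by
  unfold wt
  have h1 : #(A ∩ B) + #(A ∪ B) = #A + #B := by
    rw [add_comm]; exact Finset.card_union_add_card_inter A B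
  have h2 := eIn_supermodular F A B
  calc N ^ (#(A ∩ B)) * q ^ (eIn F (A ∩ B)) * (N ^ (#(A ∪ B)) * q ^ (eIn F (A ∪ B)))
      = N ^ (#(A ∩ B) + #(A ∪ B)) * q ^ (eIn F (A ∩ B) + eIn F (A ∪ B)) := by
        rw [pow_add, pow_add]; ring
    _ ≤ N ^ (#A + #B) * q ^ (eIn F A + eIn F B) := by
        rw [h1]
        apply mul_le_mul_of_nonneg_left _ (by positivity)
        exact pow_le_pow_of_le_one hq.le hq1 h2
    _ = _ := by rw [pow_add, pow_add]; ring

end edges

end Vale.Agent.P064
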