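import Vale.Agent.P064.Closed

/-! Counting extensions of partial embeddings. -/

namespace Vale.Agent.P064

open Finset

section basic

variable {V W : Type*} [Fintype V] [DecidableEq V] [Fintype W] [DecidableEq W]
  (F : SimpleGraph V) [DecidableRel F.Adj] (H : SimpleGraph W) [DecidableRel H.Adj]

/-- injective homomorphisms -/
noncomputable def embs : Finset (V → W) := by
  classical
  exact (univ : Finset (V → W)).filter
    (fun f => Function.Injective f ∧ ∀ a b, F.Adj a b → H.Adj (f a) (f b))

lemma mem_embs {f : V → W} :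
    f ∈ embs F H ↔ Function.Injective f ∧ ∀ a b, F.Adj a b → H.Adj (f a) (f b) := by
  unfold embs
  simp

/-- embeddings agreeing with `φ` on `U` -/
noncomputable def agr (U : Finset V) (φ : V → W) : Finset (V → W) := by
  classical
  exact (embs F H).filter (fun f => ∀ v ∈ U, f v = φ v)

lemma mem_agr {U : Finset V} {φ f : V → W} :
    f ∈ agr F H U φ ↔ f ∈ embs F H ∧ ∀ v ∈ U, f v = φ v := by
  unfold agr
  simp

/-- number of restrictions to `U'` of embeddings agreeing with `φ` on `U` -/
noncomputable def ext (U U' : Finset V) (φ : V → W) : ℕ :=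
  #((agr F H U φ).image (fun f => fun v : U' => f v))

lemma ext_self_le (U : Finset V) (φ : V → W) : ext F H U U φ ≤ 1 := by
  unfold ext
  rw [Finset.card_le_one]
  intro a ha b hb
  rw [Finset.mem_image] at ha hb
  obtain ⟨f, hf, rfl⟩ := ha
  obtain ⟨g, hg, rfl⟩ := hb
  rw [mem_agr] at hf hg
  funext v
  rw [hf.2 v v.2, hg.2 v v.2]

lemma agr_insert {U : Finset V} {φ f : V → W} {z : V} (hz : z ∉ U) (hf : f ∈ agr F H U φ) :
    f ∈ agr F H (insert z U) (Function.update φ z (f z)) := by
  rw [mem_agr] at hf ⊢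
  refine ⟨hf.1, ?_⟩
  intro v hv
  rcases Finset.mem_insert.1 hv with h | h
  · subst h; simp
  · rw [hf.2 v h]
    have : v ≠ z := fun h' => hz (h' ▸ h)
    rw [Function.update_of_ne this]

lemma ext_branch {U U' : Finset V} (φ : V → W) {z : V} (hz : z ∉ U) {M : ℝ}
    (hM : ∀ x, (ext F H (insert z U) U' (Function.update φ z x) : ℝ) ≤ M) :
    (ext F H U U' φ : ℝ) ≤ #((agr F H U φ).image (fun f => f z)) * M := by
  classical
  have hsub : (agr F H U φ).image (fun f => fun v : U' => f v) ⊆
      ((agr F H U φ).image (fun f => f z)).biUnion (fun x =>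
        (agr F H (insert z U) (Function.update φ z x)).image (fun f => fun v : U' => f v)) := by
    intro g hg
    rw [Finset.mem_image] at hg
    obtain ⟨f, hf, rfl⟩ := hg
    rw [Finset.mem_biUnion]
    exact ⟨f z, Finset.mem_image_of_mem _ hf,
      Finset.mem_image_of_mem (fun f => fun v : U' => f v) (agr_insert F H hz hf)⟩
  have h1 : (ext F H U U' φ : ℝ) ≤ ∑ x ∈ (agr F H U φ).image (fun f => f z),
      (ext F H (insert z U) U' (Function.update φ z x) : ℝ) := by
    have h2 := (Finset.card_le_card hsub).trans Finset.card_biUnion_le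
    unfold ext
    exact_mod_cast h2
  calc (ext F H U U' φ : ℝ) ≤ ∑ x ∈ (agr F H U φ).image (fun f => f z),
      (ext F H (insert z U) U' (Function.update φ z x) : ℝ) := h1
    _ ≤ ∑ x ∈ (agr F H U φ).image (fun f => f z), M := Finset.sum_le_sum (fun x _ => hM x)
    _ = _ := by rw [Finset.sum_const, nsmul_eq_mul]

lemma agr_card_le {U U' : Finset V} (φ : V → W) {M : ℝ}
    (hM : ∀ φ' : V → W, (#(agr F H U' φ') : ℝ) ≤ M) :
    (#(agr F H U φ) : ℝ) ≤ ext F H U U' φ * M := by
  classical
  rw [Finset.card_eq_sum_card_image (fun f => fun v : U' => f v) (agr F H U φ)]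
  push_cast
  unfold ext
  rw [← nsmul_eq_mul, ← Finset.sum_const]
  apply Finset.sum_le_sum
  intro g hg
  rw [Finset.mem_image] at hg
  obtain ⟨f₀, hf₀, rfl⟩ := hg
  refine le_trans ?_ (hM f₀)
  have : (agr F H U φ).filter (fun x => (fun v : U' => x v) = (fun v : U' => f₀ v)) ⊆
      agr F H U' f₀ := by
    intro f hf
    rw [Finset.mem_filter] at hf
    rw [mem_agr] at hf ⊢
    refine ⟨hf.1.1, ?_⟩
    intro v hv
    exact congrFun hf.2 ⟨v, hv⟩
  exact_mod_cast Finset.card_le_card this

end basic

section rigid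

variable {V W : Type*} [Fintype V] [DecidableEq V] [Fintype W] [DecidableEq W]
  (F : SimpleGraph V) [DecidableRel F.Adj] (H : SimpleGraph W) [DecidableRel H.Adj]

/-- union of images of `Z` -/
noncomputable def vUnion (S : Finset (V → W)) (Z : Finset V) : Finset W :=
  S.biUnion (fun f => Z.image f)

/-- union of images of the touching edges -/
noncomputable def eUnion (S : Finset (V → W)) (U Z : Finset V) : Finset (Sym2 W) :=
  S.biUnion (fun f => (touch F U Z).image (Sym2.map f))

lemma rigid_weight {N q : ℝ} (hN : 0 < N) (hq : 0 < q) (hq1 : q ≤ 1) {U₁ U' : Finset V}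
    (hU₁ : U₁ ⊆ U')
    (hR : ∀ T, U₁ ⊆ T → T ⊂ U' → wt F N q U' < wt F N q T)
    (φ : V → W) (S : Finset (V → W)) (hS : S ⊆ agr F H U₁ φ) :
    N ^ (#(vUnion S (U' \ U₁))) * q ^ (#(eUnion F S U' (U' \ U₁))) ≤ 1 := by
  classical
  induction S using Finset.induction_on with
  | empty => simp [vUnion, eUnion]
  | insert f S hf ih =>
    have ih' := ih (fun g hg => hS (Finset.mem_insert_of_mem hg))
    set Z := U' \ U₁ with hZ
    have hfa : f ∈ agr F H U₁ φ := hS (Finset.mem_insert_self f S)
    rw [mem_agr, mem_embs] at hfa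
    obtain ⟨⟨hfinj, hfhom⟩, hfφ⟩ := hfa
    set A := vUnion S Z with hA
    set E := eUnion F S U' Z with hE
    set Zn := Z.filter (fun z => f z ∉ A) with hZn
    have hv : vUnion (insert f S) Z = Z.image f ∪ A := by
      unfold vUnion
      rw [Finset.biUnion_insert]
      rfl
    have hv2 : #(vUnion (insert f S) Z) = #A + #Zn := by
      rw [hv]
      have : Z.image f ∪ A = A ∪ Zn.image f := by
        ext x
        simp only [Finset.mem_union, Finset.mem_image, hZn, Finset.mem_filter]
        constructor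
        · rintro (⟨z, hz, rfl⟩ | h)
          · by_cases hzA : f z ∈ A
            · exact Or.inl hzA
            · exact Or.inr ⟨z, ⟨hz, hzA⟩, rfl⟩
          · exact Or.inl h
        · rintro (h | ⟨z, hz, rfl⟩)
          · exact Or.inr h
          · exact Or.inl ⟨z, hz.1, rfl⟩
      rw [this, Finset.card_union_of_disjoint, Finset.card_image_of_injective _ hfinj]
      rw [Finset.disjoint_left]
      intro x hx hx'
      rw [Finset.mem_image] at hx'
      obtain ⟨z, hz, rfl⟩ := hx'
      exact (Finset.mem_filter.1 hz).2 hx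
    have hE2 : #E + #(touch F U' Zn) ≤ #(eUnion F (insert f S) U' Z) := by
      have hsub : E ∪ (touch F U' Zn).image (Sym2.map f) ⊆ eUnion F (insert f S) U' Z := by
        intro e he
        unfold eUnion
        rw [Finset.mem_biUnion]
        rcases Finset.mem_union.1 he with h | h
        · rw [hE] at h
          unfold eUnion at h
          rw [Finset.mem_biUnion] at h
          obtain ⟨g, hg, hge⟩ := h
          exact ⟨g, Finset.mem_insert_of_mem hg, hge⟩
        · refine ⟨f, Finset.mem_insert_self f S, ?_⟩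
          rw [Finset.mem_image] at h ⊢
          obtain ⟨e', he', rfl⟩ := h
          refine ⟨e', ?_, rfl⟩
          unfold touch at he' ⊢
          rw [Finset.mem_filter] at he' ⊢
          obtain ⟨v, hv, hvZ⟩ := he'.2.2
          exact ⟨he'.1, he'.2.1, v, hv, (Finset.mem_filter.1 hvZ).1⟩
      have hdisj : Disjoint E ((touch F U' Zn).image (Sym2.map f)) := by
        rw [Finset.disjoint_left]
        intro e he he'
        rw [Finset.mem_image] at he'
        obtain ⟨e', he', rfl⟩ := he'
        unfold touch at he'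
        rw [Finset.mem_filter] at he'
        obtain ⟨hF, hU, z, hz, hzZn⟩ := he'
        rw [hE] at he
        unfold eUnion at he
        rw [Finset.mem_biUnion] at he
        obtain ⟨g, hg, hge⟩ := he
        rw [Finset.mem_image] at hge
        obtain ⟨e'', he'', hgee⟩ := hge
        have hfz : f z ∈ Sym2.map g e'' := by
          rw [hgee]
          exact Sym2.mem_map.2 ⟨z, hz, rfl⟩
        rw [Sym2.mem_map] at hfz
        obtain ⟨y, hy, hgy⟩ := hfz
        unfold touch at he''
        rw [Finset.mem_filter] at he''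
        have hyU := he''.2.1 y hy
        have hgS : g ∈ agr F H U₁ φ := hS (Finset.mem_insert_of_mem hg)
        rw [mem_agr, mem_embs] at hgS
        have hzZ : z ∈ Z := (Finset.mem_filter.1 hzZn).1
        have hfzA : f z ∉ A := (Finset.mem_filter.1 hzZn).2
        by_cases hyU₁ : y ∈ U₁
        · have h1 : g y = f y := by rw [hgS.2 y hyU₁, hfφ y hyU₁]
          have h2 : f y = f z := by rw [← h1, hgy]
          have h3 : y = z := hfinj h2
          rw [h3] at hyU₁
          exact (Finset.mem_sdiff.1 hzZ).2 hyU₁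
        · apply hfzA
          rw [hA]
          unfold vUnion
          rw [Finset.mem_biUnion]
          refine ⟨g, hg, ?_⟩
          rw [Finset.mem_image]
          exact ⟨y, Finset.mem_sdiff.2 ⟨hyU, hyU₁⟩, hgy⟩
      calc #E + #(touch F U' Zn) = #E + #((touch F U' Zn).image (Sym2.map f)) := by
            rw [Finset.card_image_of_injective _ (Sym2.map.injective hfinj)]
        _ = #(E ∪ (touch F U' Zn).image (Sym2.map f)) :=
            (Finset.card_union_of_disjoint hdisj).symm
        _ ≤ _ := Finset.card_le_card hsub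
    have hnew : N ^ (#Zn) * q ^ (#(touch F U' Zn)) ≤ 1 := by
      by_cases hZe : Zn = ∅
      · rw [hZe]
        simp only [Finset.card_empty, pow_zero, one_mul]
        exact pow_le_one₀ hq.le hq1
      · have hZnU' : Zn ⊆ U' := (Finset.filter_subset _ _).trans Finset.sdiff_subset
        have hT1 : U₁ ⊆ U' \ Zn := by
          intro x hx
          rw [Finset.mem_sdiff]
          refine ⟨hU₁ hx, ?_⟩
          intro hx'
          exact (Finset.mem_sdiff.1 (Finset.mem_filter.1 hx').1).2 hx
        have hT2 : U' \ Zn ⊂ U' :=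
          Finset.sdiff_ssubset hZnU' (Finset.nonempty_iff_ne_empty.2 hZe)
        have := hR _ hT1 hT2
        unfold wt at this
        rw [eIn_eq_add_touch F U' Zn] at this
        have hc : #U' = #(U' \ Zn) + #Zn := (Finset.card_sdiff_add_card_eq_card hZnU').symm
        rw [hc, pow_add, pow_add] at this
        have hpos : 0 < N ^ (#(U' \ Zn)) * q ^ (eIn F (U' \ Zn)) := by positivity
        have h3 : N ^ (#(U' \ Zn)) * q ^ (eIn F (U' \ Zn)) *
            (N ^ (#Zn) * q ^ (#(touch F U' Zn))) <
            N ^ (#(U' \ Zn)) * q ^ (eIn F (U' \ Zn)) * 1 := by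
          rw [mul_one]
          calc N ^ (#(U' \ Zn)) * q ^ (eIn F (U' \ Zn)) *
                (N ^ (#Zn) * q ^ (#(touch F U' Zn))) =
                N ^ (#(U' \ Zn)) * N ^ (#Zn) *
                (q ^ (eIn F (U' \ Zn)) * q ^ (#(touch F U' Zn))) := by ring
            _ < _ := this
        exact (lt_of_mul_lt_mul_left h3 hpos.le).le
    rw [hv2, pow_add]
    calc N ^ (#A) * N ^ (#Zn) * q ^ (#(eUnion F (insert f S) U' Z))
        ≤ N ^ (#A) * N ^ (#Zn) * q ^ (#E + #(touch F U' Zn)) := by
          apply mul_le_mul_of_nonneg_left _ (by positivity)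
          exact pow_le_pow_of_le_one hq.le hq1 hE2
      _ = (N ^ (#A) * q ^ (#E)) * (N ^ (#Zn) * q ^ (#(touch F U' Zn))) := by
          rw [pow_add]; ring
      _ ≤ 1 * 1 := by
          apply mul_le_mul ih' hnew (by positivity) (by norm_num)
      _ = 1 := by norm_num

/-- boundary of `U₁` in `U'` -/
def bdry (U₁ U' : Finset V) : Finset V := U₁.filter (fun u => ∃ z ∈ U' \ U₁, F.Adj u z)

lemma bdry_nonempty {N q : ℝ} (hN : 0 < N) (hq : 0 < q) (hq1 : q ≤ 1) {U U₁ U' : Finset V}
    (hU : IsCl (wt F N q) U) (hUU₁ : U ⊂ U₁) (hU₁ : U₁ ⊂ U')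
    (hR : wt F N q U' < wt F N q U₁) : (bdry F U₁ U').Nonempty := by
  classical
  by_contra hcon
  rw [Finset.not_nonempty_iff_eq_empty] at hcon
  have hno : ∀ u ∈ U₁, ∀ z ∈ U' \ U₁, ¬ F.Adj u z := by
    intro u hu z hz hadj
    have : u ∈ bdry F U₁ U' := by
      unfold bdry
      rw [Finset.mem_filter]
      exact ⟨hu, z, hz, hadj⟩
    rw [hcon] at this
    exact absurd this (Finset.notMem_empty u)
  set Z := U' \ U₁ with hZ
  -- touching edges are inside Z
  have htouch : touch F U' Z ⊆ touch F (U ∪ Z) Z := by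
    intro e he
    unfold touch at he ⊢
    rw [Finset.mem_filter] at he ⊢
    refine ⟨he.1, ?_, he.2.2⟩
    obtain ⟨z, hz, hzZ⟩ := he.2.2
    intro v hv
    apply Finset.mem_union_right
    by_contra hvZ
    have hvU' := he.2.1 v hv
    have hvU₁ : v ∈ U₁ := by
      by_contra h
      exact hvZ (Finset.mem_sdiff.2 ⟨hvU', h⟩)
    have hne : v ≠ z := by
      rintro rfl
      exact hvZ hzZ
    have hes : e = s(v, z) := (Sym2.mem_and_mem_iff hne).1 ⟨hv, hz⟩
    have hadj : F.Adj v z := by
      have := he.1
      rw [hes, SimpleGraph.mem_edgeFinset, SimpleGraph.mem_edgeSet] at this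
      exact this
    exact hno v hvU₁ z hzZ hadj
  have h1 : wt F N q U' = wt F N q U₁ * (N ^ (#Z) * q ^ (#(touch F U' Z))) := by
    unfold wt
    rw [eIn_eq_add_touch F U' Z]
    have hc : #U' = #(U' \ Z) + #Z := (Finset.card_sdiff_add_card_eq_card Finset.sdiff_subset).symm
    have hd : U' \ Z = U₁ := by
      rw [hZ]
      exact Finset.sdiff_sdiff_eq_self hU₁.subset
    rw [hc, hd, pow_add, pow_add]; ring
  have h2 : wt F N q (U ∪ Z) ≤ wt F N q U * (N ^ (#Z) * q ^ (#(touch F U' Z))) := by
    unfold wt
    rw [eIn_eq_add_touch F (U ∪ Z) Z]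
    have hdisj : Disjoint U Z := by
      rw [Finset.disjoint_left]
      intro x hx hxZ
      exact (Finset.mem_sdiff.1 hxZ).2 (hUU₁.subset hx)
    have hc : #(U ∪ Z) = #U + #Z := Finset.card_union_of_disjoint hdisj
    have hd : (U ∪ Z) \ Z = U := by
      rw [Finset.union_sdiff_right]
      exact Finset.sdiff_eq_self_of_disjoint hdisj
    rw [hc, hd, pow_add, pow_add]
    have h3 : q ^ (#(touch F (U ∪ Z) Z)) ≤ q ^ (#(touch F U' Z)) :=
      pow_le_pow_of_le_one hq.le hq1 (Finset.card_le_card htouch)
    calc N ^ (#U) * N ^ (#Z) * (q ^ (eIn F U) * q ^ (#(touch F (U ∪ Z) Z)))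
        ≤ N ^ (#U) * N ^ (#Z) * (q ^ (eIn F U) * q ^ (#(touch F U' Z))) := by gcongr
      _ = _ := by ring
  have h3 : N ^ (#Z) * q ^ (#(touch F U' Z)) < 1 := by
    rw [h1] at hR
    have hp := wt_pos F hN hq U₁
    by_contra hcon2
    push Not at hcon2
    have : wt F N q U₁ * 1 ≤ wt F N q U₁ * (N ^ (#Z) * q ^ (#(touch F U' Z))) :=
      mul_le_mul_of_nonneg_left hcon2 hp.le
    linarith
  have h4 := hU (U ∪ Z) Finset.subset_union_left
  have hp := wt_pos F hN hq U
  have h5 : wt F N q U * (N ^ (#Z) * q ^ (#(touch F U' Z))) < wt F N q U * 1 :=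
    mul_lt_mul_of_pos_left h3 hp
  linarith

/-- The rigid counting lemma. `M` bounds the number of choices at each exploration step. -/
lemma rigid_count {n q M : ℝ} (hn : 0 < n) (hq : 0 < q) (hq1 : q ≤ 1) (hM0 : 0 ≤ M)
    {U U' : Finset V} (hU : IsCl (wt F (2 * n) q) U)
    (hR : ∀ T, U ⊂ T → T ⊂ U' → wt F (2 * n) q U' < wt F (2 * n) q T)
    (hstar : ∀ (A : Finset W) (E : Finset (Sym2 W)), (∀ e ∈ E, e ∈ H.edgeFinset) →
      (∀ e ∈ E, ∀ v ∈ e, v ∈ A) → 1 / 2 ≤ n ^ (#A) * q ^ (#E))
    (hnum : ∀ a r ε : ℕ, 1 ≤ r → (2 * n) ^ a * q ^ ε ≤ 1 → 1 / 2 ≤ n ^ (a + r) * q ^ ε →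
      (ε : ℝ) ≤ r * M) (hn1 : 1 ≤ n) :
    ∀ (m : ℕ) (U₁ : Finset V), U ⊂ U₁ → U₁ ⊆ U' → #(U' \ U₁) = m →
      ∀ φ : V → W, (ext F H U₁ U' φ : ℝ) ≤ M ^ m := by
  classical
  intro m
  induction m with
  | zero =>
    intro U₁ hUU₁ hU₁ hm φ
    have : U' ⊆ U₁ := by
      rw [Finset.card_eq_zero, Finset.sdiff_eq_empty_iff_subset] at hm
      exact hm
    have heq : U₁ = U' := Finset.Subset.antisymm hU₁ this
    subst heq
    have := ext_self_le F H U₁ φ
    simp only [pow_zero]
    exact_mod_cast this
  | succ m ih =>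
    intro U₁ hUU₁ hU₁ hm φ
    have hssub : U₁ ⊂ U' := by
      refine Finset.ssubset_iff_subset_ne.2 ⟨hU₁, ?_⟩
      rintro rfl
      simp at hm
    by_cases hne : (agr F H U₁ φ).Nonempty
    swap
    · rw [Finset.not_nonempty_iff_eq_empty] at hne
      unfold ext
      rw [hne]
      simp only [Finset.image_empty, Finset.card_empty, Nat.cast_zero]
      positivity
    set Z := U' \ U₁ with hZ
    set B := bdry F U₁ U' with hB
    have hBne : B.Nonempty := bdry_nonempty F (by linarith) hq hq1 hU hUU₁ hssub (hR U₁ hUU₁ hssub)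
    set S := agr F H U₁ φ with hS
    set A := vUnion S Z with hA
    set E := eUnion F S U' Z with hE
    have hw := rigid_weight F H (N := 2 * n) (by linarith) hq hq1 hU₁
      (fun T hT1 hT2 => hR T (lt_of_lt_of_le hUU₁ hT1) hT2) φ S (Finset.Subset.refl _)
    -- the star condition
    have hEH : ∀ e ∈ E, e ∈ H.edgeFinset := by
      intro e he
      rw [hE] at he
      unfold eUnion at he
      rw [Finset.mem_biUnion] at he
      obtain ⟨f, hf, hfe⟩ := he
      rw [Finset.mem_image] at hfe
      obtain ⟨e', he', rfl⟩ := hfe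
      rw [hS, mem_agr, mem_embs] at hf
      unfold touch at he'
      rw [Finset.mem_filter] at he'
      have h1 := he'.1
      induction e' using Sym2.ind with
      | _ a b =>
        rw [SimpleGraph.mem_edgeFinset, SimpleGraph.mem_edgeSet] at h1
        rw [Sym2.map_mk, SimpleGraph.mem_edgeFinset, SimpleGraph.mem_edgeSet]
        exact hf.1.2 a b h1
    have hEA : ∀ e ∈ E, ∀ v ∈ e, v ∈ A ∪ B.image φ := by
      intro e he v hv
      rw [hE] at he
      unfold eUnion at he
      rw [Finset.mem_biUnion] at he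
      obtain ⟨f, hf, hfe⟩ := he
      rw [Finset.mem_image] at hfe
      obtain ⟨e', he', rfl⟩ := hfe
      have hf' := hf
      rw [hS, mem_agr, mem_embs] at hf'
      unfold touch at he'
      rw [Finset.mem_filter] at he'
      rw [Sym2.mem_map] at hv
      obtain ⟨y, hy, rfl⟩ := hv
      by_cases hyZ : y ∈ Z
      · apply Finset.mem_union_left
        rw [hA]
        unfold vUnion
        rw [Finset.mem_biUnion]
        exact ⟨f, hf, Finset.mem_image_of_mem _ hyZ⟩
      · apply Finset.mem_union_right
        have hyU₁ : y ∈ U₁ := by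
          by_contra h
          exact hyZ (Finset.mem_sdiff.2 ⟨he'.2.1 y hy, h⟩)
        rw [Finset.mem_image]
        refine ⟨y, ?_, (hf'.2 y hyU₁).symm⟩
        rw [hB]
        unfold bdry
        rw [Finset.mem_filter]
        obtain ⟨z, hz, hzZ⟩ := he'.2.2
        have hyz : y ≠ z := by
          rintro rfl
          exact hyZ hzZ
        have hes : e' = s(y, z) := (Sym2.mem_and_mem_iff hyz).1 ⟨hy, hz⟩
        have hadj : F.Adj y z := by
          have := he'.1
          rw [hes, SimpleGraph.mem_edgeFinset, SimpleGraph.mem_edgeSet] at this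
          exact this
        exact ⟨hyU₁, z, hzZ, hadj⟩
    have hst := hstar (A ∪ B.image φ) E hEH hEA
    have hst2 : 1 / 2 ≤ n ^ (#A + #B) * q ^ (#E) := by
      refine hst.trans ?_
      apply mul_le_mul_of_nonneg_right _ (by positivity)
      apply pow_le_pow_right₀ hn1
      exact (Finset.card_union_le _ _).trans (Nat.add_le_add_left Finset.card_image_le _)
    have hB1 : 1 ≤ #B := Finset.card_pos.2 hBne
    have hεM := hnum (#A) (#B) (#E) hB1 hw hst2
    -- choose z(p)
    have hz : ∀ p ∈ B, ∃ z ∈ Z, F.Adj p z := by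
      intro p hp
      rw [hB] at hp
      unfold bdry at hp
      exact (Finset.mem_filter.1 hp).2
    choose! zz hzzZ hzzadj using hz
    -- sum of the sizes of the candidate sets
    have hsum : ∑ p ∈ B, #(S.image (fun f => f (zz p))) ≤ #E := by
      rw [← Finset.card_sigma]
      apply Finset.card_le_card_of_injOn (fun x => s(φ x.1, x.2))
      · rintro ⟨p, x⟩ hpx
        rw [Finset.mem_coe, Finset.mem_sigma, Finset.mem_image] at hpx
        obtain ⟨hp, f, hf, hfx⟩ := hpx
        simp only at hfx hp
        rw [Finset.mem_coe, hE]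
        unfold eUnion
        rw [Finset.mem_biUnion]
        refine ⟨f, hf, ?_⟩
        rw [Finset.mem_image]
        refine ⟨s(p, zz p), ?_, ?_⟩
        · unfold touch
          rw [Finset.mem_filter, SimpleGraph.mem_edgeFinset, SimpleGraph.mem_edgeSet]
          refine ⟨hzzadj p hp, ?_, zz p, by simp, hzzZ p hp⟩
          intro v hv
          rw [Sym2.mem_iff] at hv
          rcases hv with rfl | rfl
          · rw [hB] at hp
            unfold bdry at hp
            exact hU₁ (Finset.mem_filter.1 hp).1
          · exact (Finset.mem_sdiff.1 (hzzZ p hp)).1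
        · rw [Sym2.map_mk]
          have hpU₁ : p ∈ U₁ := by
            rw [hB] at hp
            unfold bdry at hp
            exact (Finset.mem_filter.1 hp).1
          rw [hS, mem_agr] at hf
          simp only [hf.2 p hpU₁, hfx]
      · rintro ⟨p, x⟩ hpx ⟨p', x'⟩ hpx' heq
        rw [Finset.mem_coe, Finset.mem_sigma, Finset.mem_image] at hpx hpx'
        obtain ⟨hp, f, hf, hfx⟩ := hpx
        obtain ⟨hp', f', hf', hfx'⟩ := hpx'
        simp only at hfx hfx' hp hp' heq
        have hpU₁ : p ∈ U₁ := by
          rw [hB] at hp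
          unfold bdry at hp
          exact (Finset.mem_filter.1 hp).1
        have hpU₁' : p' ∈ U₁ := by
          rw [hB] at hp'
          unfold bdry at hp'
          exact (Finset.mem_filter.1 hp').1
        rw [hS, mem_agr, mem_embs] at hf hf'
        rw [Sym2.eq_iff] at heq
        rcases heq with ⟨h1, h2⟩ | ⟨h1, h2⟩
        · have h3 : p = p' := by
            apply hf.1.1
            rw [hf.2 p hpU₁, hf.2 p' hpU₁', h1]
          subst h3
          rw [h2]
        · exfalso
          -- φ p = x' = f' (zz p')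
          have h3 : f' p = f' (zz p') := by
            rw [hf'.2 p hpU₁, h1, hfx']
          have h4 : p = zz p' := hf'.1.1 h3
          have h5 := hzzZ p' hp'
          rw [← h4] at h5
          exact (Finset.mem_sdiff.1 h5).2 hpU₁
    -- choose the best p
    obtain ⟨p, hp, hpmin⟩ := Finset.exists_min_image B (fun p => #(S.image (fun f => f (zz p)))) hBne
    have hpc : #B * #(S.image (fun f => f (zz p))) ≤ #E := by
      calc #B * #(S.image (fun f => f (zz p)))
          = ∑ p' ∈ B, #(S.image (fun f => f (zz p))) := by rw [Finset.sum_const, smul_eq_mul]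
        _ ≤ ∑ p' ∈ B, #(S.image (fun f => f (zz p'))) := Finset.sum_le_sum (fun p' hp' => hpmin p' hp')
        _ ≤ _ := hsum
    have hpM : (#(S.image (fun f => f (zz p))) : ℝ) ≤ M := by
      have h1 : (#B : ℝ) * #(S.image (fun f => f (zz p))) ≤ #B * M := by
        calc (#B : ℝ) * #(S.image (fun f => f (zz p))) ≤ #E := by exact_mod_cast hpc
          _ ≤ _ := hεM
      have hBpos : (0:ℝ) < #B := by exact_mod_cast hB1
      exact le_of_mul_le_mul_left h1 hBpos
    have hzp : zz p ∉ U₁ := (Finset.mem_sdiff.1 (hzzZ p hp)).2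
    have hzpU' : zz p ∈ U' := (Finset.mem_sdiff.1 (hzzZ p hp)).1
    have hcard : #(U' \ insert (zz p) U₁) = m := by
      have h1 : U' \ insert (zz p) U₁ = (U' \ U₁).erase (zz p) := by
        ext x
        simp only [Finset.mem_sdiff, Finset.mem_insert, Finset.mem_erase, not_or]
        tauto
      rw [h1, Finset.card_erase_of_mem (hzzZ p hp)]
      omega
    have hrec : ∀ x, (ext F H (insert (zz p) U₁) U' (Function.update φ (zz p) x) : ℝ) ≤ M ^ m := by
      intro x
      apply ih (insert (zz p) U₁) _ _ hcard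
      · exact lt_of_lt_of_le hUU₁ (Finset.subset_insert _ _)
      · intro y hy
        rcases Finset.mem_insert.1 hy with h | h
        · rw [h]; exact hzpU'
        · exact hU₁ h
    calc (ext F H U₁ U' φ : ℝ) ≤ #((agr F H U₁ φ).image (fun f => f (zz p))) * M ^ m :=
          ext_branch F H φ hzp hrec
      _ ≤ M * M ^ m := by
          apply mul_le_mul_of_nonneg_right hpM (by positivity)
      _ = M ^ (m + 1) := by rw [pow_succ]; ring

end rigid

end Vale.Agent.P064
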