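import Mathlib

/-! Definitions for the second Kahn-Kalai problem. `N(G,F)` is Mathlib's `SimpleGraph.copyCount`,
the number of subgraphs of `G` isomorphic to `F`. -/

namespace Vale.Agent.P064

/-- The probability that the binomial random graph `G(n,p)` equals `G`. -/
noncomputable def gnpWeight (n : ℕ) (p : ℝ) (G : SimpleGraph (Fin n)) : ℝ :=
  p ^ G.edgeSet.ncard * (1 - p) ^ (n.choose 2 - G.edgeSet.ncard)

open Classical in
/-- `Pr(N(G(n,p),H) > 0)`. -/
noncomputable def probContains {V : Type*} (n : ℕ) (p : ℝ) (H : SimpleGraph V) : ℝ :=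
  ∑ G : SimpleGraph (Fin n), if 0 < G.copyCount H then gnpWeight n p G else 0

open Classical in
/-- `E N(G(n,p),F)`. -/
noncomputable def expCopies {W : Type*} (n : ℕ) (p : ℝ) (F : SimpleGraph W) : ℝ :=
  ∑ G : SimpleGraph (Fin n), gnpWeight n p G * (G.copyCount F : ℝ)

/-- The threshold `p_c(n,H)`. -/
noncomputable def pc {V : Type*} (n : ℕ) (H : SimpleGraph V) : ℝ :=
  sInf {p : ℝ | 0 ≤ p ∧ p ≤ 1 ∧ 1 / 2 ≤ probContains n p H}

/-- The (second) expectation threshold `p_E(n,H)`. -/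
noncomputable def pE {V : Type*} (n : ℕ) (H : SimpleGraph V) : ℝ :=
  sInf {p : ℝ | 0 ≤ p ∧ p ≤ 1 ∧ ∀ F : H.Subgraph, 1 / 2 ≤ expCopies n p F.coe}

end Vale.Agent.P064
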