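import Vale.Agent.P064.Star

/-! The bound on the number of embeddings. -/

namespace Vale.Agent.P064

open Finset SimpleGraph

section emb

variable {V W : Type*} [Fintype V] [DecidableEq V] [Fintype W] [DecidableEq W]
  (F : SimpleGraph V) [DecidableRel F.Adj] (H : SimpleGraph W) [DecidableRel H.Adj]

lemma bdry_card_le (U U' : Finset V) (hUU' : U ⊆ U') :
    #(bdry F U U') ≤ #(touch F U' (U' \ U)) := by
  classical
  have hz : ∀ u ∈ bdry F U U', ∃ z ∈ U' \ U, F.Adj u z := by
    intro u hu
    unfold bdry at hu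
    exact (Finset.mem_filter.1 hu).2
  choose! zz hzz hzzadj using hz
  have hbU : ∀ u ∈ bdry F U U', u ∈ U := by
    intro u hu
    unfold bdry at hu
    exact (Finset.mem_filter.1 hu).1
  apply Finset.card_le_card_of_injOn (fun u => s(u, zz u))
  · intro u hu
    rw [Finset.mem_coe] at hu ⊢
    unfold touch
    rw [Finset.mem_filter, SimpleGraph.mem_edgeFinset, SimpleGraph.mem_edgeSet]
    refine ⟨hzzadj u hu, ?_, zz u, by simp, hzz u hu⟩
    intro v hv
    rw [Sym2.mem_iff] at hv
    rcases hv with rfl | rfl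
    · exact hUU' (hbU v hu)
    · exact (Finset.mem_sdiff.1 (hzz u hu)).1
  · intro u hu u' hu' heq
    rw [Finset.mem_coe] at hu hu'
    simp only at heq
    rw [Sym2.eq_iff] at heq
    rcases heq with h | h
    · exact h.1
    · exfalso
      have h1 := hzz u' hu'
      rw [← h.1] at h1
      exact (Finset.mem_sdiff.1 h1).2 (hbU u hu)

lemma eIn_insert {U : Finset V} {p z : V} (hp : p ∈ U) (hz : z ∉ U) (hadj : F.Adj p z) :
    eIn F U + 1 ≤ eIn F (insert z U) := by
  classical
  rw [eIn_eq_add_touch F (insert z U) {z}]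
  have h4 : insert z U \ {z} = U := by
    ext x
    simp only [Finset.mem_sdiff, Finset.mem_insert, Finset.mem_singleton]
    constructor
    · rintro ⟨h | h, h'⟩
      · exact absurd h h'
      · exact h
    · intro h
      exact ⟨Or.inr h, fun h' => hz (h' ▸ h)⟩
  rw [h4]
  apply Nat.add_le_add_left
  apply Finset.card_pos.2
  refine ⟨s(p, z), ?_⟩
  unfold touch
  rw [Finset.mem_filter, SimpleGraph.mem_edgeFinset, SimpleGraph.mem_edgeSet]
  refine ⟨hadj, ?_, z, by simp, by simp⟩
  intro v hv
  rw [Sym2.mem_iff] at hv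
  rcases hv with rfl | rfl
  · exact Finset.mem_insert_of_mem hp
  · exact Finset.mem_insert_self _ _

lemma hstep_holds {n : ℕ} (hn : 2 ≤ n) {q : ℝ} (hq : 0 < q) (hq1 : q < 1)
    (hH : ∀ F : H.Subgraph, 1 / 2 ≤ expCopies n q F.coe)
    (U U' : Finset V) (hU : IsCl (wt F (2 * n) q) U)
    (hUU' : U ⊂ U')
    (hR : ∀ T, U ⊂ T → T ⊂ U' → wt F (2 * n) q U' < wt F (2 * n) q T) (φ : V → W) :
    (ext F H U U' φ : ℝ) * (wt F (2 * n) q U) ≤
      wt F (2 * n) q U' * Ac ^ (#U' - #U) * (Gc n q) ^ (eIn F U' - eIn F U) := by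
  classical
  have hn' : (2:ℝ) ≤ n := by exact_mod_cast hn
  have hn0 : (0:ℝ) < n := by linarith
  have hN0 : (0:ℝ) < 2 * n := by linarith
  have hM0 := Mc_nonneg hn' hq hq1
  have hstar : ∀ (A : Finset W) (E : Finset (Sym2 W)), (∀ e ∈ E, e ∈ H.edgeFinset) →
      (∀ e ∈ E, ∀ v ∈ e, v ∈ A) → 1 / 2 ≤ (n:ℝ) ^ (#A) * q ^ (#E) :=
    fun A E h1 h2 => star1 hq.le hq1.le hH A E h1 h2
  have hrc := rigid_count F H hn0 hq hq1.le hM0 hU hR hstar
    (fun a r ε h1 h2 h3 => num_choice hn' hq hq1 a r ε h1 h2 h3) (by linarith)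
  have hsub := hUU'.subset
  have hQne : (U' \ U).Nonempty := by
    rw [Finset.sdiff_nonempty]
    exact fun h => hUU'.2 h
  have hs1 : 1 ≤ #(U' \ U) := Finset.card_pos.2 hQne
  -- insertion facts
  have hinsc : ∀ w ∈ U' \ U, #(U' \ insert w U) = #(U' \ U) - 1 := by
    intro w hw
    have h1 : U' \ insert w U = (U' \ U).erase w := by
      ext x
      simp only [Finset.mem_sdiff, Finset.mem_insert, Finset.mem_erase, not_or]
      tauto
    rw [h1, Finset.card_erase_of_mem hw]
  have hins1 : ∀ w ∈ U' \ U, U ⊂ insert w U := fun w hw =>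
    Finset.ssubset_insert (Finset.mem_sdiff.1 hw).2
  have hins2 : ∀ w ∈ U' \ U, insert w U ⊆ U' := by
    intro w hw y hy
    rcases Finset.mem_insert.1 hy with h | h
    · rw [h]; exact (Finset.mem_sdiff.1 hw).1
    · exact hsub h
  have hrig : ∀ w ∈ U' \ U, ∀ φ : V → W,
      (ext F H (insert w U) U' φ : ℝ) ≤ (Mc n q) ^ (#(U' \ U) - 1) := by
    intro w hw φ'
    exact hrc _ (insert w U) (hins1 w hw) (hins2 w hw) (hinsc w hw) φ'
  obtain ⟨D, hD, hPD, hDle⟩ := step_count F H hM0 hUU' hrig φ
  set s := #(U' \ U) with hs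
  set e := #(touch F U' (U' \ U)) with he
  have heU : eIn F U' = eIn F U + e := by
    rw [eIn_eq_add_touch F U' (U' \ U), Finset.sdiff_sdiff_eq_self hsub]
  have hcU : #U' = #U + s := by
    rw [hs, Finset.card_sdiff_of_subset hsub]
    have := Finset.card_le_card hsub
    omega
  have hwt : wt F (2 * n) q U' = wt F (2 * n) q U * ((2 * n) ^ s * q ^ e) := by
    unfold wt
    rw [heU, hcU, pow_add, pow_add]; ring
  have hwU := wt_pos F hN0 hq U
  have f1 : 1 ≤ (2 * (n:ℝ)) ^ s * q ^ e := by
    have h1 := hU U' hsub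
    rw [hwt] at h1
    by_contra hcon
    push Not at hcon
    have := mul_lt_mul_of_pos_left hcon hwU
    linarith
  have f2 := star2 F H (by omega : 1 ≤ n) hq.le hq1.le hH hUU' φ D hD hPD
  rw [← hs, ← he] at f2
  have f3 : #(bdry F U U') ≤ e := bdry_card_le F U U' hsub
  have f4 : s ≤ e + 1 := by
    obtain ⟨w, hw⟩ := hQne
    have h1 := edges_ge F hN0 hq hq1.le hU hR (s - 1) (insert w U) (hins1 w hw) (hins2 w hw)
      (hinsc w hw)
    have h2 := eIn_mono F (Finset.subset_insert w U)
    omega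
  have f5 : 1 ≤ #(bdry F U U') → s ≤ e := by
    intro hr
    obtain ⟨u, hu⟩ := Finset.card_pos.1 hr
    unfold bdry at hu
    rw [Finset.mem_filter] at hu
    obtain ⟨huU, z, hz, hadj⟩ := hu
    have h1 := edges_ge F hN0 hq hq1.le hU hR (s - 1) (insert z U) (hins1 z hz) (hins2 z hz)
      (hinsc z hz)
    have h2 := eIn_insert F huU (Finset.mem_sdiff.1 hz).2 hadj
    omega
  have hlq := lq_pos hq hq1
  have hx : 0 < Real.log n := Real.log_pos (by linarith)
  have f6 : ((s - 1 : ℕ) : ℝ) * Real.log n ≤ e * Real.log (1 / q) := by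
    by_cases hs2 : s = 1
    · rw [hs2]
      simp only [Nat.sub_self, Nat.cast_zero, zero_mul]
      positivity
    · obtain ⟨w, hw⟩ := hQne
      have hssub : insert w U ⊂ U' := by
        refine Finset.ssubset_iff_subset_ne.2 ⟨hins2 w hw, ?_⟩
        intro heq
        have := hinsc w hw
        rw [heq, Finset.sdiff_self, Finset.card_empty] at this
        omega
      have h1 := hR (insert w U) (hins1 w hw) hssub
      have h2 : wt F (2 * n) q (insert w U) ≤ wt F (2 * n) q U * (2 * n) := by
        unfold wt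
        rw [Finset.card_insert_of_notMem (Finset.mem_sdiff.1 hw).2, pow_succ]
        have h3 : q ^ (eIn F (insert w U)) ≤ q ^ (eIn F U) :=
          pow_le_pow_of_le_one hq.le hq1.le (eIn_mono F (Finset.subset_insert w U))
        calc (2 * (n:ℝ)) ^ (#U) * (2 * n) * q ^ (eIn F (insert w U))
            ≤ (2 * (n:ℝ)) ^ (#U) * (2 * n) * q ^ (eIn F U) := by gcongr
          _ = _ := by ring
      rw [hwt] at h1
      have h4 : wt F (2 * n) q U * ((2 * n) ^ s * q ^ e) < wt F (2 * n) q U * (2 * n) :=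
        lt_of_lt_of_le h1 h2
      have h5 : (2 * (n:ℝ)) ^ s * q ^ e < 2 * n := lt_of_mul_lt_mul_left h4 hwU.le
      have h6 : (2 * (n:ℝ)) ^ s = (2 * n) ^ (s - 1) * (2 * n) := by
        rw [← pow_succ]; congr 1; omega
      rw [h6] at h5
      have h7 : (2 * (n:ℝ)) ^ (s - 1) * q ^ e < 1 := by
        have : (2 * (n:ℝ)) ^ (s - 1) * q ^ e * (2 * n) < 1 * (2 * n) := by
          rw [one_mul]
          calc (2 * (n:ℝ)) ^ (s - 1) * q ^ e * (2 * n) = (2 * n) ^ (s - 1) * (2 * n) * q ^ e := by
                ring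
            _ < _ := h5
        exact lt_of_mul_lt_mul_right this hN0.le
      have h8 : (n:ℝ) ^ (s - 1) * q ^ e ≤ 1 := by
        refine le_trans ?_ h7.le
        have : (n:ℝ) ^ (s - 1) ≤ (2 * (n:ℝ)) ^ (s - 1) := by
          apply pow_le_pow_left₀ hn0.le
          linarith
        gcongr
      have h9 := Real.log_le_log (by positivity) h8
      rw [Real.log_one, Real.log_mul (by positivity) (by positivity), Real.log_pow,
        Real.log_pow] at h9
      rw [one_div, Real.log_inv]
      linarith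
  have hnum := num_step hn' hq hq1 s e (#(bdry F U U')) (#D) hs1 f1 f2 f3 f4 f5 f6
  have hext : (ext F H U U' φ : ℝ) ≤ (2 * n) ^ s * q ^ e * Ac ^ s * Gc n q ^ e :=
    hDle.trans hnum
  have e1 : #U' - #U = s := by omega
  have e2 : eIn F U' - eIn F U = e := by omega
  rw [e1, e2, hwt]
  calc (ext F H U U' φ : ℝ) * wt F (2 * n) q U
      ≤ ((2 * n) ^ s * q ^ e * Ac ^ s * Gc n q ^ e) * wt F (2 * n) q U :=
        mul_le_mul_of_nonneg_right hext hwU.le
    _ = _ := by ring

lemma image_edges_star {n : ℕ} {q : ℝ} (hq : 0 < q) (hq1 : q < 1)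
    (hH : ∀ F : H.Subgraph, 1 / 2 ≤ expCopies n q F.coe)
    {f : V → W} (hf : f ∈ embs F H) (X : Finset V) :
    1 / 2 ≤ (n:ℝ) ^ (#X) * q ^ (eIn F X) := by
  classical
  rw [mem_embs] at hf
  have h1 := star1 hq.le hq1.le hH (X.image f)
    ((F.edgeFinset.filter (fun e => ∀ v ∈ e, v ∈ X)).image (Sym2.map f)) ?_ ?_
  · rw [Finset.card_image_of_injective _ hf.1,
      Finset.card_image_of_injective _ (Sym2.map.injective hf.1)] at h1
    exact h1
  · intro e he
    rw [Finset.mem_image] at he
    obtain ⟨e', he', rfl⟩ := he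
    rw [Finset.mem_filter] at he'
    induction e' using Sym2.ind with
    | _ a b =>
      have h2 := he'.1
      rw [SimpleGraph.mem_edgeFinset, SimpleGraph.mem_edgeSet] at h2
      rw [Sym2.map_mk, SimpleGraph.mem_edgeFinset, SimpleGraph.mem_edgeSet]
      exact hf.2 a b h2
  · intro e he v hv
    rw [Finset.mem_image] at he
    obtain ⟨e', he', rfl⟩ := he
    rw [Finset.mem_filter] at he'
    rw [Sym2.mem_map] at hv
    obtain ⟨y, hy, rfl⟩ := hv
    exact Finset.mem_image_of_mem f (he'.2 y hy)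

/-- The main counting bound: the number of embeddings of `F` in `H`. -/
lemma embs_card_le {n : ℕ} (hn : 2 ≤ n) {q : ℝ} (hq : 0 < q) (hq1 : q < 1)
    (hH : ∀ F : H.Subgraph, 1 / 2 ≤ expCopies n q F.coe) :
    (#(embs F H) : ℝ) ≤
      (2 * n * Ac) ^ (Fintype.card V) * (q * Gc n q) ^ (#F.edgeFinset) := by
  classical
  have hn' : (2:ℝ) ≤ n := by exact_mod_cast hn
  have hn0 : (0:ℝ) < n := by linarith
  have hN0 : (0:ℝ) < 2 * n := by linarith
  have hAc := Ac_pos
  have hGc := Gc_pos (q := q) hn'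
  rcases Finset.eq_empty_or_nonempty (embs F H) with he | ⟨f, hf⟩
  · rw [he]
    simp only [Finset.card_empty, Nat.cast_zero]
    positivity
  · have hcl : IsCl (wt F (2 * n) q) ∅ := by
      intro X _
      have h1 := image_edges_star F H hq hq1 hH hf X
      have h0 : wt F (2 * n) q ∅ = 1 := by
        unfold wt eIn
        have : F.edgeFinset.filter (fun e => ∀ v ∈ e, v ∈ (∅ : Finset V)) = ∅ := by
          rw [Finset.filter_eq_empty_iff]
          intro e _ h
          induction e using Sym2.ind with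
          | _ a b => exact absurd (h a (by simp)) (Finset.notMem_empty _)
        rw [this]
        simp
      rw [h0]
      rcases Finset.eq_empty_or_nonempty X with hX | hX
      · rw [hX, h0]
      · unfold wt
        rw [mul_pow]
        have h2 : (2:ℝ) ≤ 2 ^ (#X) := by
          calc (2:ℝ) = 2 ^ 1 := (pow_one _).symm
            _ ≤ 2 ^ (#X) := pow_le_pow_right₀ (by norm_num) (Finset.card_pos.2 hX)
        nlinarith
    have htot := total_count F H (N := 2 * n) (q := q) (A := Ac) (G := Gc n q) hN0 hq hq1.le hAc hGc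
      (fun U U' hU _ hUU' hR φ => hstep_holds F H hn hq hq1 hH U U' hU hUU' hR φ)
      (Fintype.card V) ∅ hcl (by simp) f
    have hagr : agr F H ∅ f = embs F H := by
      ext g
      rw [mem_agr]
      simp
    have h0 : wt F (2 * n) q ∅ = 1 := by
      unfold wt eIn
      have : F.edgeFinset.filter (fun e => ∀ v ∈ e, v ∈ (∅ : Finset V)) = ∅ := by
        rw [Finset.filter_eq_empty_iff]
        intro e _ h
        induction e using Sym2.ind with
        | _ a b => exact absurd (h a (by simp)) (Finset.notMem_empty _)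
      rw [this]
      simp
    have h00 : eIn F (∅ : Finset V) = 0 := by
      unfold eIn
      have : F.edgeFinset.filter (fun e => ∀ v ∈ e, v ∈ (∅ : Finset V)) = ∅ := by
        rw [Finset.filter_eq_empty_iff]
        intro e _ h
        induction e using Sym2.ind with
        | _ a b => exact absurd (h a (by simp)) (Finset.notMem_empty _)
      rw [this]
      simp
    have h1 : eIn F (univ : Finset V) = #F.edgeFinset := by
      unfold eIn
      congr 1
      rw [Finset.filter_eq_self]
      intro e _ v _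
      exact Finset.mem_univ v
    rw [hagr, h0, mul_one, h00, h1, Finset.card_empty, Nat.sub_zero, Nat.sub_zero] at htot
    refine htot.trans (le_of_eq ?_)
    unfold wt
    rw [h1, Finset.card_univ, mul_pow, mul_pow q]
    ring

end emb

end Vale.Agent.P064
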