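import Vale.Agent.P064.Spread

/-! The main theorem. -/

namespace Vale.Agent.P064

open Finset SimpleGraph

section main

variable {V : Type*} [Fintype V] [DecidableEq V] {n : ℕ}

/-- the family of edge sets of copies of `H` -/
noncomputable def fam (n : ℕ) (H : SimpleGraph V) : Finset (Finset (Sym2 (Fin n))) := by
  classical
  exact (inj V n).image (imE H)

lemma mem_fam {H : SimpleGraph V} {S : Finset (Sym2 (Fin n))} :
    S ∈ fam n H ↔ ∃ σ ∈ inj V n, imE H σ = S := by
  unfold fam
  rw [Finset.mem_image]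

lemma copyCount_pos_iff (H : SimpleGraph V) (G : SimpleGraph (Fin n))
    (W : Finset (Sym2 (Fin n))) (hW : (W : Set (Sym2 (Fin n))) = G.edgeSet) :
    0 < G.copyCount H ↔ ∃ S ∈ fam n H, S ⊆ W := by
  classical
  have hWG : W = G.edgeFinset := by
    ext e
    rw [mem_ef, ← hW, Finset.mem_coe]
  rw [SimpleGraph.copyCount_pos]
  constructor
  · rintro ⟨f⟩
    refine ⟨imE H f, mem_fam.2 ⟨f, mem_inj.2 f.injective, rfl⟩, ?_⟩
    rw [hWG, imE_subset_iff]
    intro a b hab
    exact f.toHom.map_adj hab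
  · rintro ⟨S, hS, hSW⟩
    obtain ⟨σ, hσ, rfl⟩ := mem_fam.1 hS
    rw [hWG, imE_subset_iff] at hSW
    exact ⟨⟨⟨σ, fun {a b} hab => hSW a b hab⟩, mem_inj.1 hσ⟩⟩

open Classical in
lemma probContains_eq (H : SimpleGraph V) (p : ℝ) :
    probContains n p H =
      expect p (allE n) (fun W => if ∃ S ∈ fam n H, S ⊆ W then (1:ℝ) else 0) := by
  unfold probContains
  rw [← sum_graphs' n p (fun G => if 0 < G.copyCount H then (1:ℝ) else 0)]
  · apply Finset.sum_congr rfl
    intro G _
    by_cases h : 0 < G.copyCount H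
    · simp [h]
    · simp [h]
  · intro G W hW
    have := copyCount_pos_iff H G W hW
    by_cases h : 0 < G.copyCount H
    · rw [if_pos h, if_pos (this.1 h)]
    · rw [if_neg h, if_neg (fun h' => h (this.2 h'))]

lemma isContained_top (H : SimpleGraph V) (hVn : Fintype.card V ≤ n) :
    H.IsContained (⊤ : SimpleGraph (Fin n)) := by
  obtain ⟨f⟩ : Nonempty (V ↪ Fin n) :=
    Function.Embedding.nonempty_of_card_le (by rw [Fintype.card_fin]; exact hVn)
  exact ⟨⟨⟨f, fun {a b} hab => by
    rw [SimpleGraph.top_adj]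
    exact fun h => hab.ne (f.injective h)⟩, f.injective⟩⟩

lemma gnpWeight_one_top : gnpWeight n 1 (⊤ : SimpleGraph (Fin n)) = 1 := by
  classical
  unfold gnpWeight
  have h1 : (⊤ : SimpleGraph (Fin n)).edgeSet.ncard = n.choose 2 := by
    rw [← SimpleGraph.coe_edgeFinset, Set.ncard_coe_finset]
    exact card_allE n
  rw [h1]
  simp

lemma one_mem_pc (H : SimpleGraph V) (hVn : Fintype.card V ≤ n) : 1 / 2 ≤ probContains n 1 H := by
  classical
  unfold probContains
  have h1 : (if 0 < (⊤ : SimpleGraph (Fin n)).copyCount H then gnpWeight n 1 ⊤ else 0) ≤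
      ∑ G : SimpleGraph (Fin n), if 0 < G.copyCount H then gnpWeight n 1 G else 0 := by
    apply Finset.single_le_sum (f := fun G : SimpleGraph (Fin n) =>
      if 0 < G.copyCount H then gnpWeight n 1 G else 0)
    · intro G _
      by_cases h : 0 < G.copyCount H
      · simp only [h, if_true]
        exact gnpWeight_nonneg (by norm_num) (by norm_num) G
      · simp [h]
    · exact Finset.mem_univ _
  rw [if_pos (SimpleGraph.copyCount_pos.2 (isContained_top H hVn)), gnpWeight_one_top] at h1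
  refine le_trans (by norm_num) h1

lemma pc_le_of (H : SimpleGraph V) {p : ℝ} (h0 : 0 ≤ p) (h1 : p ≤ 1)
    (h : 1 / 2 ≤ probContains n p H) : pc n H ≤ p := by
  unfold pc
  apply csInf_le
  · exact ⟨0, fun x hx => hx.1⟩
  · exact ⟨h0, h1, h⟩

lemma pc_le_one (H : SimpleGraph V) (hVn : Fintype.card V ≤ n) : pc n H ≤ 1 :=
  pc_le_of H (by norm_num) le_rfl (one_mem_pc H hVn)

lemma one_mem_pE {W : Type*} [Fintype W] (F : SimpleGraph W) (hW : Fintype.card W ≤ n) :
    1 / 2 ≤ expCopies n 1 F := by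
  classical
  unfold expCopies
  have h1 : gnpWeight n 1 ⊤ * ((⊤ : SimpleGraph (Fin n)).copyCount F : ℝ) ≤
      ∑ G : SimpleGraph (Fin n), gnpWeight n 1 G * (G.copyCount F : ℝ) := by
    apply Finset.single_le_sum (f := fun G : SimpleGraph (Fin n) =>
      gnpWeight n 1 G * (G.copyCount F : ℝ))
    · intro G _
      exact mul_nonneg (gnpWeight_nonneg (by norm_num) (by norm_num) G) (by positivity)
    · exact Finset.mem_univ _
  have h2 : 0 < (⊤ : SimpleGraph (Fin n)).copyCount F :=
    SimpleGraph.copyCount_pos.2 (isContained_top F hW)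
  have h3 : (1:ℝ) ≤ ((⊤ : SimpleGraph (Fin n)).copyCount F : ℝ) := by exact_mod_cast h2
  rw [gnpWeight_one_top, one_mul] at h1
  linarith

lemma continuous_expCopies {W : Type*} (F : SimpleGraph W) :
    Continuous (fun p => expCopies n p F) := by
  unfold expCopies gnpWeight
  fun_prop

lemma pE_mem (H : SimpleGraph V) (hVn : Fintype.card V ≤ n) :
    0 ≤ pE n H ∧ pE n H ≤ 1 ∧ ∀ F : H.Subgraph, 1 / 2 ≤ expCopies n (pE n H) F.coe := by
  classical
  have hcl : IsClosed {p : ℝ | 0 ≤ p ∧ p ≤ 1 ∧ ∀ F : H.Subgraph, 1 / 2 ≤ expCopies n p F.coe} := by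
    have : {p : ℝ | 0 ≤ p ∧ p ≤ 1 ∧ ∀ F : H.Subgraph, 1 / 2 ≤ expCopies n p F.coe} =
        {p : ℝ | 0 ≤ p} ∩ ({p : ℝ | p ≤ 1} ∩ ⋂ F : H.Subgraph,
          {p : ℝ | 1 / 2 ≤ expCopies n p F.coe}) := by
      ext p
      simp
    rw [this]
    refine (isClosed_le continuous_const continuous_id).inter
      ((isClosed_le continuous_id continuous_const).inter (isClosed_iInter ?_))
    intro F
    exact isClosed_le continuous_const (continuous_expCopies F.coe)
  have hne : {p : ℝ | 0 ≤ p ∧ p ≤ 1 ∧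
      ∀ F : H.Subgraph, 1 / 2 ≤ expCopies n p F.coe}.Nonempty := by
    refine ⟨1, by norm_num, le_rfl, ?_⟩
    intro F
    apply one_mem_pE
    refine le_trans ?_ hVn
    exact Fintype.card_le_of_injective Subtype.val Subtype.val_injective
  have hbdd : BddBelow {p : ℝ | 0 ≤ p ∧ p ≤ 1 ∧
      ∀ F : H.Subgraph, 1 / 2 ≤ expCopies n p F.coe} := ⟨0, fun x hx => hx.1⟩
  exact hcl.csInf_mem hne hbdd

lemma pE_pos (H : SimpleGraph V) (hVn : Fintype.card V ≤ n) (hH : H ≠ ⊥) : 0 < pE n H := by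
  classical
  obtain ⟨h0, h1, h2⟩ := pE_mem H hVn
  rcases h0.lt_or_eq with h | h
  · exact h
  · exfalso
    obtain ⟨a, b, hab⟩ := SimpleGraph.ne_bot_iff_exists_adj.1 hH
    have h3 := star1 h0 h1 h2 {a, b} {s(a, b)} ?_ ?_
    · rw [← h, Finset.card_singleton, pow_one, mul_zero] at h3
      norm_num at h3
    · intro e he
      rw [Finset.mem_singleton] at he
      rw [he, mem_ef, SimpleGraph.mem_edgeSet]
      exact hab
    · intro e he v hv
      rw [Finset.mem_singleton] at he
      rw [he, Sym2.mem_iff] at hv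
      simpa using hv

lemma pc_le_pp (H : SimpleGraph V) [Nonempty V] (hn : 2 ≤ n) (hVn : Fintype.card V ≤ n) {q : ℝ}
    (hq : 0 < q) (hq1 : q < 1)
    (hH : ∀ F : H.Subgraph, 1 / 2 ≤ expCopies n q F.coe)
    (h64 : 64 * pp n q ≤ 1) (k : ℕ) (hk : n.choose 2 < 2 ^ k) :
    pc n H ≤ 64 * pp n q * k := by
  classical
  have hn' : (2:ℝ) ≤ n := by exact_mod_cast hn
  have hAc := Ac_pos
  have hGc := Gc_pos (q := q) hn'
  have hpp : 0 < pp n q := by unfold pp; positivity
  have hfamX : ∀ S ∈ fam n H, S ⊆ allE n := by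
    intro S hS
    obtain ⟨σ, hσ, rfl⟩ := mem_fam.1 hS
    exact imE_subset_allE H (mem_inj.1 hσ)
  have hfamk : ∀ S ∈ fam n H, #S < 2 ^ k := by
    intro S hS
    have := Finset.card_le_card (hfamX S hS)
    rw [card_allE] at this
    omega
  have hpark := parkPham hpp h64 (allE n) k (fam n H) hfamX hfamk 1 (by
    intro G hG
    apply cover_cost H hn hVn hq hq1 hH G
    intro σ hσ
    exact hG _ (mem_fam.2 ⟨σ, hσ, rfl⟩))
  have hsum := sum_quarter_le k
  set p' := 1 - (1 - 64 * pp n q) ^ k with hp'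
  have hb0 : 0 ≤ 1 - 64 * pp n q := by linarith
  have hb1 : 1 - 64 * pp n q ≤ 1 := by linarith
  have hp'0 : 0 ≤ p' := by
    have := pow_le_one₀ (n := k) hb0 hb1
    rw [hp']; linarith
  have hp'1 : p' ≤ 1 := by
    have := pow_nonneg hb0 k
    rw [hp']; linarith
  have hprob : 1 / 2 ≤ probContains n p' H := by
    rw [probContains_eq]
    have h1 : expect p' (allE n) (fun W => if ∃ S ∈ fam n H, S ⊆ W then (1:ℝ) else 0) +
        expect p' (allE n) (fun W => if ∃ S ∈ fam n H, S ⊆ W then (0:ℝ) else 1) = 1 := by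
      rw [← expect_add]
      refine Eq.trans ?_ (expect_const p' (allE n) 1)
      apply expect_congr
      intro W _
      by_cases h : ∃ S ∈ fam n H, S ⊆ W
      · rw [if_pos h, if_pos h, add_zero]
      · rw [if_neg h, if_neg h, zero_add]
    have h2 : expect p' (allE n) (fun W => if ∃ S ∈ fam n H, S ⊆ W then (0:ℝ) else 1) ≤ 1 / 2 := by
      refine le_trans (le_of_eq ?_) (hpark.trans (by linarith))
      congr
    linarith
  refine (pc_le_of H hp'0 hp'1 hprob).trans ?_
  have h3 := one_add_mul_le_pow (a := -(64 * pp n q)) (by linarith) k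
  rw [hp']
  have h4 : (1 + -(64 * pp (n:ℝ) q)) = 1 - 64 * pp n q := by ring
  rw [h4] at h3
  linarith

/-- The main bound. -/
theorem main_bound (H : SimpleGraph V) (hn : 2 ≤ n) (hVn : Fintype.card V ≤ n) (hH : H ≠ ⊥) :
    pc n H ≤ (512 * (2 * Real.exp 1 * Ac) ^ 2 * (6 * Real.exp 1)) * pE n H *
      (Real.log n) ^ (1 + min 1 (Real.log (1 / pE n H) / Real.log n)) := by
  classical
  have hn' : (2:ℝ) ≤ n := by exact_mod_cast hn
  have hn0 : (0:ℝ) < n := by linarith
  have hx : Real.log 2 ≤ Real.log n := Real.log_le_log (by norm_num) hn'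
  have hx2 := log_two_ge
  have hx0 : 0 < Real.log n := by linarith
  have hAc := Ac_pos
  have he1 : (1:ℝ) ≤ Real.exp 1 := Real.one_le_exp (by norm_num)
  have he2 : (1:ℝ) ≤ Real.exp 2 := Real.one_le_exp (by norm_num)
  have hAc1 : (1:ℝ) ≤ Ac := by unfold Ac; linarith
  obtain ⟨h0, h1, h2⟩ := pE_mem H hVn
  have hpos := pE_pos H hVn hH
  set q := pE n H with hqdef
  obtain ⟨a, b, hab⟩ := SimpleGraph.ne_bot_iff_exists_adj.1 hH
  haveI : Nonempty V := ⟨a⟩
  have hCbig : (2:ℝ) ≤ 512 * (2 * Real.exp 1 * Ac) ^ 2 * (6 * Real.exp 1) := by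
    have h3 : (1:ℝ) ≤ 2 * Real.exp 1 * Ac := by nlinarith
    have h4 : (1:ℝ) ≤ (2 * Real.exp 1 * Ac) ^ 2 := one_le_pow₀ h3
    nlinarith
  rcases h1.lt_or_eq with hq1 | hq1
  · -- q < 1
    have hGc := Gc_pos (q := q) hn'
    have hpp : 0 < pp n q := by unfold pp; positivity
    have hac0 := ac_nonneg hn' hpos hq1
    have hkey : pc n H ≤ 64 * pp n q * (8 * Real.log n) := by
      by_cases h64 : 64 * pp n q ≤ 1
      · have hk : n.choose 2 < 2 ^ (2 * (Nat.log 2 n + 1)) := by
          have h3 : n < 2 ^ (Nat.log 2 n + 1) := Nat.lt_pow_succ_log_self (by norm_num) n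
          have h4 : n.choose 2 ≤ n ^ 2 := Nat.choose_le_pow n 2
          calc n.choose 2 ≤ n ^ 2 := h4
            _ < (2 ^ (Nat.log 2 n + 1)) ^ 2 := Nat.pow_lt_pow_left h3 (by norm_num)
            _ = 2 ^ (2 * (Nat.log 2 n + 1)) := by rw [← pow_mul, mul_comm]
        have h5 := pc_le_pp H hn hVn hpos hq1 h2 h64 _ hk
        refine h5.trans ?_
        apply mul_le_mul_of_nonneg_left _ (by positivity)
        push_cast
        have h6 : (Nat.log 2 n : ℝ) * Real.log 2 ≤ Real.log n := by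
          have h7 : 2 ^ (Nat.log 2 n) ≤ n := Nat.pow_log_le_self 2 (by omega)
          have h8 : (2:ℝ) ^ (Nat.log 2 n) ≤ n := by exact_mod_cast h7
          have h9 := Real.log_le_log (by positivity) h8
          rwa [Real.log_pow] at h9
        have h7 : (Nat.log 2 n : ℝ) ≤ 2 * Real.log n := by
          have h8 : (0:ℝ) ≤ (Nat.log 2 n : ℝ) := by positivity
          nlinarith
        linarith
      · push Not at h64
        refine (pc_le_one H hVn).trans ?_
        have h3 : 1 ≤ 8 * Real.log n := by linarith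
        nlinarith
    refine hkey.trans ?_
    -- (1 + log n)^a ≤ 3 (log n)^a
    have h3 : (1 + Real.log n) ^ (ac n q) ≤ 3 * (Real.log n) ^ (ac n q) := by
      calc (1 + Real.log n) ^ (ac n q) ≤ (3 * Real.log n) ^ (ac n q) := by
            apply Real.rpow_le_rpow (by linarith) _ hac0
            linarith
        _ = 3 ^ (ac n q) * (Real.log n) ^ (ac n q) := Real.mul_rpow (by norm_num) hx0.le
        _ ≤ 3 * (Real.log n) ^ (ac n q) := by
            have h4 : (3:ℝ) ^ (ac n q) ≤ 3 ^ (1:ℝ) := by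
              apply Real.rpow_le_rpow_of_exponent_le (by norm_num)
              unfold ac
              exact min_le_left _ _
            rw [Real.rpow_one] at h4
            have h5 : 0 ≤ (Real.log n) ^ (ac n q) := Real.rpow_nonneg hx0.le _
            exact mul_le_mul_of_nonneg_right h4 h5
    have h4 : (Real.log n) ^ (1 + min 1 (Real.log (1 / q) / Real.log n)) =
        Real.log n * (Real.log n) ^ (ac n q) := by
      unfold ac
      rw [Real.rpow_add hx0, Real.rpow_one]
    rw [h4]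
    unfold pp Gc
    have h5 : 0 ≤ (Real.log n) ^ (ac n q) := Real.rpow_nonneg hx0.le _
    calc 64 * ((2 * Real.exp 1 * Ac) ^ 2 * (q * (2 * Real.exp 1 * (1 + Real.log n) ^ (ac n q)))) *
          (8 * Real.log n)
        ≤ 64 * ((2 * Real.exp 1 * Ac) ^ 2 * (q * (2 * Real.exp 1 *
            (3 * (Real.log n) ^ (ac n q))))) * (8 * Real.log n) := by gcongr
      _ = _ := by ring
  · -- q = 1
    rw [hq1]
    have h3 : min 1 (Real.log (1 / 1) / Real.log (n:ℝ)) = 0 := by
      simp
    rw [h3, add_zero, Real.rpow_one, mul_one]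
    refine (pc_le_one H hVn).trans ?_
    nlinarith

end main

end Vale.Agent.P064
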