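import Mathlib

/-! Numerical inequalities. -/

namespace Vale.Agent.P064

open Real

/-- number of choices at an exploration step -/
noncomputable def Mc (n q : ℝ) : ℝ := (Real.log n / Real.log (1 / q)) * (Real.log n / Real.log 2 + 3)

lemma log_two_pos : 0 < Real.log 2 := Real.log_pos (by norm_num)

lemma log_two_le_one : Real.log 2 ≤ 1 := by
  have := Real.log_le_sub_one_of_pos (show (0:ℝ) < 2 by norm_num)
  linarith

lemma log_two_ge : 1 / 2 ≤ Real.log 2 := by
  have := Real.log_two_gt_d9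
  linarith

section
variable {n q : ℝ}

lemma lq_pos (hq : 0 < q) (hq1 : q < 1) : 0 < Real.log (1 / q) := by
  apply Real.log_pos
  rw [one_div]
  exact (one_lt_inv₀ hq).2 hq1

lemma Mc_nonneg (hn : 2 ≤ n) (hq : 0 < q) (hq1 : q < 1) : 0 ≤ Mc n q := by
  unfold Mc
  have h1 := lq_pos hq hq1
  have h2 : 0 < Real.log n := Real.log_pos (by linarith)
  have h3 := log_two_pos
  positivity

lemma num_choice (hn : 2 ≤ n) (hq : 0 < q) (hq1 : q < 1) (a r ε : ℕ) (hr : 1 ≤ r)
    (h1 : (2 * n) ^ a * q ^ ε ≤ 1) (h2 : 1 / 2 ≤ n ^ (a + r) * q ^ ε) :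
    (ε : ℝ) ≤ r * Mc n q := by
  have hl := lq_pos hq hq1
  have hx : 0 < Real.log n := Real.log_pos (by linarith)
  have hx2 : Real.log 2 ≤ Real.log n := Real.log_le_log (by norm_num) hn
  have hn0 : 0 < n := by linarith
  have hlq : Real.log (1 / q) = - Real.log q := by rw [one_div, Real.log_inv]
  have hr' : (1:ℝ) ≤ r := by exact_mod_cast hr
  -- logs
  have g1 : a * (Real.log 2 + Real.log n) - ε * Real.log (1 / q) ≤ 0 := by
    have := Real.log_le_log (by positivity) h1
    rw [Real.log_one, Real.log_mul (by positivity) (by positivity), Real.log_pow, Real.log_pow,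
      Real.log_mul (by norm_num) hn0.ne'] at this
    rw [hlq]; linarith
  have g2 : ε * Real.log (1 / q) ≤ (a + r) * Real.log n + Real.log 2 := by
    have := Real.log_le_log (by norm_num) h2
    rw [Real.log_mul (by positivity) (by positivity), Real.log_pow, Real.log_pow,
      one_div, Real.log_inv] at this
    push_cast at this
    rw [hlq]; linarith
  have g3 : a * Real.log 2 ≤ r * Real.log n + Real.log 2 := by nlinarith
  have hl2 := log_two_pos
  have g4 : (a:ℝ) ≤ r * (Real.log n / Real.log 2 + 1) := by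
    have : (a:ℝ) ≤ (r * Real.log n + Real.log 2) / Real.log 2 := by
      rw [le_div_iff₀ hl2]; exact g3
    calc (a:ℝ) ≤ (r * Real.log n + Real.log 2) / Real.log 2 := this
      _ = r * (Real.log n / Real.log 2) + 1 := by field_simp
      _ ≤ r * (Real.log n / Real.log 2) + r := by linarith
      _ = _ := by ring
  have g5 : ε * Real.log (1 / q) ≤ r * (Real.log n * (Real.log n / Real.log 2 + 3)) := by
    calc ε * Real.log (1 / q) ≤ (a + r) * Real.log n + Real.log 2 := g2
      _ ≤ (r * (Real.log n / Real.log 2 + 1) + r) * Real.log n + r * Real.log n := by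
          have : Real.log 2 ≤ r * Real.log n := by nlinarith
          have h3 : (a + r : ℝ) * Real.log n ≤
            (r * (Real.log n / Real.log 2 + 1) + r) * Real.log n := by
            apply mul_le_mul_of_nonneg_right _ hx.le
            linarith
          linarith
      _ = _ := by ring
  unfold Mc
  have : (ε : ℝ) ≤ r * (Real.log n * (Real.log n / Real.log 2 + 3)) / Real.log (1 / q) := by
    rw [le_div_iff₀ hl]; exact g5
  calc (ε:ℝ) ≤ r * (Real.log n * (Real.log n / Real.log 2 + 3)) / Real.log (1 / q) := this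
    _ = _ := by ring

lemma Mc_le (hn : 2 ≤ n) (hq : 0 < q) (hq1 : q < 1) :
    Mc n q ≤ 3 * (Real.log n / Real.log (1 / q)) * (1 + Real.log n) := by
  have hl := lq_pos hq hq1
  have hx : 0 < Real.log n := Real.log_pos (by linarith)
  have hl2 := log_two_pos
  have hl3 := log_two_ge
  have h1 : Real.log n / Real.log 2 + 3 ≤ 3 * (1 + Real.log n) := by
    have : Real.log n / Real.log 2 ≤ 3 * Real.log n := by
      rw [div_le_iff₀ hl2]; nlinarith
    linarith
  unfold Mc
  calc Real.log n / Real.log (1 / q) * (Real.log n / Real.log 2 + 3)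
      ≤ Real.log n / Real.log (1 / q) * (3 * (1 + Real.log n)) := by gcongr
    _ = _ := by ring

/-- `κ^(s-1) ≤ exp e` when `(s-1) log n ≤ e log (1/q)` -/
lemma kappa_pow_le (hn : 2 ≤ n) (hq : 0 < q) (hq1 : q < 1) (m e : ℕ)
    (h : (m : ℝ) * Real.log n ≤ e * Real.log (1 / q)) :
    (Real.log n / Real.log (1 / q)) ^ m ≤ Real.exp e := by
  have hl := lq_pos hq hq1
  have hx : 0 < Real.log n := Real.log_pos (by linarith)
  set κ := Real.log n / Real.log (1 / q) with hκ
  have hκ0 : 0 < κ := by positivity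
  have h1 : κ ≤ Real.exp κ := by
    have := Real.add_one_le_exp κ
    linarith
  calc κ ^ m ≤ (Real.exp κ) ^ m := by gcongr
    _ = Real.exp (m * κ) := by rw [← Real.exp_nat_mul]
    _ ≤ Real.exp e := by
        apply Real.exp_le_exp.2
        rw [hκ, mul_div_assoc', div_le_iff₀ hl]
        exact h

/-- the bound on the number of disjoint extensions -/
lemma disjoint_bound {lam x : ℝ} (hlam : 0 < lam) (D r : ℕ) (hx : 0 ≤ x)
    (h : (D.factorial : ℝ) ≤ 2 * Real.exp (r * x) * lam ^ D) :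
    (D : ℝ) ≤ Real.exp 2 * lam ∨ (D : ℝ) ≤ r * x + Real.log 2 := by
  by_cases hD : (D : ℝ) ≤ Real.exp 2 * lam
  · exact Or.inl hD
  · right
    push Not at hD
    have hDpos : (0:ℝ) < D := lt_trans (by positivity) hD
    have h1 : (D : ℝ) ^ D / D.factorial ≤ Real.exp D :=
      Real.pow_div_factorial_le_exp (D : ℝ) hDpos.le D
    have hfac : (0:ℝ) < D.factorial := by exact_mod_cast Nat.factorial_pos D
    have h2 : (D : ℝ) ^ D ≤ Real.exp D * D.factorial := by
      rw [div_le_iff₀ hfac] at h1; exact h1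
    have h3 : lam ≤ D * Real.exp (-2) := by
      rw [Real.exp_neg]
      rw [← div_eq_mul_inv, le_div_iff₀ (Real.exp_pos 2)]
      linarith
    have h4 : lam ^ D ≤ (D : ℝ) ^ D * Real.exp (-2 * D) := by
      calc lam ^ D ≤ (D * Real.exp (-2)) ^ D := by gcongr
        _ = (D : ℝ) ^ D * (Real.exp (-2)) ^ D := by rw [mul_pow]
        _ = (D : ℝ) ^ D * Real.exp (-2 * D) := by
            rw [← Real.exp_nat_mul]; ring_nf
    have h5 : (D : ℝ) ^ D ≤ Real.exp D * (2 * Real.exp (r * x) *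
        ((D : ℝ) ^ D * Real.exp (-2 * D))) := by
      calc (D : ℝ) ^ D ≤ Real.exp D * D.factorial := h2
        _ ≤ Real.exp D * (2 * Real.exp (r * x) * lam ^ D) := by gcongr
        _ ≤ _ := by gcongr
    have hDD : (0:ℝ) < (D : ℝ) ^ D := by positivity
    have h6 : Real.exp D ≤ 2 * Real.exp (r * x) := by
      have e1 : Real.exp D * (2 * Real.exp (r * x) * ((D : ℝ) ^ D * Real.exp (-2 * D))) =
          (D : ℝ) ^ D * (2 * Real.exp (r * x) * Real.exp (-D)) := by
        have : Real.exp D * Real.exp (-2 * D) = Real.exp (-D) := by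
          rw [← Real.exp_add]; ring_nf
        rw [← this]; ring
      rw [e1] at h5
      have h7 : 1 ≤ 2 * Real.exp (r * x) * Real.exp (-D) := by
        by_contra hcon
        push Not at hcon
        have := mul_lt_mul_of_pos_left hcon hDD
        linarith
      rw [Real.exp_neg, ← div_eq_mul_inv, le_div_iff₀ (Real.exp_pos _)] at h7
      linarith
    have h8 := Real.log_le_log (Real.exp_pos _) h6
    rw [Real.log_exp, Real.log_mul (by norm_num) (Real.exp_pos _).ne', Real.log_exp] at h8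
    linarith

lemma sq_le_four_pow (s : ℕ) : ((s : ℝ)) ^ 2 ≤ 4 ^ s := by
  have h : s ≤ 2 ^ s := (Nat.lt_two_pow_self).le
  have h' : (s : ℝ) ≤ 2 ^ s := by exact_mod_cast h
  calc ((s : ℝ)) ^ 2 ≤ ((2:ℝ) ^ s) ^ 2 := by gcongr
    _ = 4 ^ s := by rw [← pow_mul, mul_comm, pow_mul]; norm_num

/-- exponent -/
noncomputable def ac (n q : ℝ) : ℝ := min 1 (Real.log (1 / q) / Real.log n)

lemma ac_nonneg (hn : 2 ≤ n) (hq : 0 < q) (hq1 : q < 1) : 0 ≤ ac n q := by
  have hl := lq_pos hq hq1
  have hx : 0 < Real.log n := Real.log_pos (by linarith)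
  unfold ac
  apply le_min (by norm_num)
  positivity

noncomputable def Gc (n q : ℝ) : ℝ := 2 * Real.exp 1 * (1 + Real.log n) ^ (ac n q)

noncomputable def Ac : ℝ := 12 * Real.exp 2

lemma Gc_pos (hn : 2 ≤ n) : 0 < Gc n q := by
  have hx : 0 < Real.log n := Real.log_pos (by linarith)
  unfold Gc
  positivity

lemma Gc_pow (hn : 2 ≤ n) (e : ℕ) :
    Gc n q ^ e = 2 ^ e * Real.exp e * (1 + Real.log n) ^ (ac n q * e) := by
  have hx : 0 < Real.log n := Real.log_pos (by linarith)
  unfold Gc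
  rw [mul_pow, mul_pow, ← Real.exp_nat_mul, mul_one, ← Real.rpow_natCast ((1 + Real.log n) ^ _),
    ← Real.rpow_mul (by linarith)]

lemma Ac_pos : 0 < Ac := by unfold Ac; positivity

lemma Mc_pow_le (hn : 2 ≤ n) (hq : 0 < q) (hq1 : q < 1) (s e D : ℕ)
    (f6 : ((s - 1 : ℕ) : ℝ) * Real.log n ≤ e * Real.log (1 / q)) :
    (D : ℝ) * (s : ℝ) ^ 2 * Mc n q ^ (s - 1) ≤
      D * (12 ^ s * Real.exp e * (1 + Real.log n) ^ (s - 1)) := by
  have hl := lq_pos hq hq1
  have hx : 0 < Real.log n := Real.log_pos (by linarith)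
  have hM := Mc_le hn hq hq1
  have hM0 := Mc_nonneg hn hq hq1
  have hMp : Mc n q ^ (s - 1) ≤ 3 ^ s * Real.exp e * (1 + Real.log n) ^ (s - 1) := by
    calc Mc n q ^ (s - 1) ≤ (3 * (Real.log n / Real.log (1 / q)) * (1 + Real.log n)) ^ (s - 1) := by
          exact pow_le_pow_left₀ hM0 hM _
      _ = 3 ^ (s - 1) * (Real.log n / Real.log (1 / q)) ^ (s - 1) * (1 + Real.log n) ^ (s - 1) := by
          rw [mul_pow, mul_pow]
      _ ≤ 3 ^ s * Real.exp e * (1 + Real.log n) ^ (s - 1) := by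
          have h1 : (3:ℝ) ^ (s - 1) ≤ 3 ^ s := pow_le_pow_right₀ (by norm_num) (Nat.sub_le s 1)
          have h2 := kappa_pow_le hn hq hq1 (s - 1) e f6
          gcongr
  have hs2 := sq_le_four_pow s
  calc (D : ℝ) * (s : ℝ) ^ 2 * Mc n q ^ (s - 1) ≤
        D * 4 ^ s * (3 ^ s * Real.exp e * (1 + Real.log n) ^ (s - 1)) := by
          gcongr
      _ = D * ((4 * 3) ^ s * Real.exp e * (1 + Real.log n) ^ (s - 1)) := by rw [mul_pow]; ring
      _ = _ := by norm_num

lemma exponent_le (hn : 2 ≤ n) (s e : ℕ) (hs : 1 ≤ s)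
    (f4 : s ≤ e + 1)
    (f6 : ((s - 1 : ℕ) : ℝ) * Real.log n ≤ e * Real.log (1 / q)) :
    ((s - 1 : ℕ) : ℝ) ≤ ac n q * e := by
  have hx : 0 < Real.log n := Real.log_pos (by linarith)
  have hsm : ((s - 1 : ℕ) : ℝ) = (s:ℝ) - 1 := by
    rw [Nat.cast_sub hs]; norm_num
  unfold ac
  rw [min_mul_of_nonneg _ _ (by positivity : (0:ℝ) ≤ e)]
  apply le_min
  · rw [hsm]
    have : (s:ℝ) ≤ e + 1 := by exact_mod_cast f4
    linarith
  · rw [div_mul_eq_mul_div, le_div_iff₀ hx]
    linarith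

lemma caseA {T lam : ℝ} (hT1 : 1 ≤ T) (hlam0 : 0 < lam) (s e D : ℕ) (hs : 1 ≤ s) (b : ℝ)
    (hexp : ((s - 1 : ℕ) : ℝ) ≤ b)
    (hcase : (D : ℝ) ≤ Real.exp 2 * lam) :
    D * (12 ^ s * Real.exp e * T ^ (s - 1)) ≤
      lam * (2 ^ s * Ac ^ s) * (2 ^ e * Real.exp e * T ^ b) := by
  have hT0 : 0 < T := by linarith
  have hAc := Ac_pos
  have h1 : T ^ (s - 1) ≤ T ^ b := by
    rw [← Real.rpow_natCast T (s - 1)]
    exact Real.rpow_le_rpow_of_exponent_le hT1 hexp
  have h2 : Real.exp 2 * 12 ^ s ≤ 2 ^ s * Ac ^ s := by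
    unfold Ac
    rw [← mul_pow]
    calc Real.exp 2 * 12 ^ s ≤ (Real.exp 2) ^ s * 12 ^ s := by
          apply mul_le_mul_of_nonneg_right _ (by positivity)
          have : (1:ℝ) ≤ Real.exp 2 := Real.one_le_exp (by norm_num)
          calc Real.exp 2 = (Real.exp 2) ^ 1 := (pow_one _).symm
            _ ≤ (Real.exp 2) ^ s := pow_le_pow_right₀ this hs
      _ = (12 * Real.exp 2) ^ s := by rw [← mul_pow]; ring_nf
      _ ≤ (2 * (12 * Real.exp 2)) ^ s := by
          apply pow_le_pow_left₀ (by positivity)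
          have := Real.exp_pos 2
          nlinarith
  have h2e : (1:ℝ) ≤ 2 ^ e := one_le_pow₀ (by norm_num)
  calc (D : ℝ) * (12 ^ s * Real.exp e * T ^ (s - 1))
      ≤ (Real.exp 2 * lam) * (12 ^ s * Real.exp e * T ^ b) := by gcongr
    _ = lam * (Real.exp 2 * 12 ^ s) * (1 * Real.exp e * T ^ b) := by ring
    _ ≤ lam * (2 ^ s * Ac ^ s) * (2 ^ e * Real.exp e * T ^ b) := by
        have hE := Real.exp_pos (e:ℝ)
        have hTb : 0 < T ^ b := Real.rpow_pos_of_pos hT0 b
        gcongr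

lemma keyB (hn : 2 ≤ n) (hq : 0 < q) (s e : ℕ)
    (f1 : 1 ≤ 2 ^ s * (n ^ s * q ^ e)) (hse : s ≤ e) :
    (1 + Real.log n) ^ (s:ℝ) ≤
      2 ^ s * (n ^ s * q ^ e) * (1 + Real.log n) ^ (ac n q * e) := by
  have hx : 0 < Real.log n := Real.log_pos (by linarith)
  have hn0 : 0 < n := by linarith
  have hT1 : 1 ≤ 1 + Real.log n := by linarith
  have hT0 : 0 < 1 + Real.log n := by linarith
  have hlam0 : 0 < n ^ s * q ^ e := by positivity
  by_cases hle : (s:ℝ) ≤ ac n q * e
  · calc (1 + Real.log n) ^ (s:ℝ) ≤ (1 + Real.log n) ^ (ac n q * e) :=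
          Real.rpow_le_rpow_of_exponent_le hT1 hle
      _ ≤ 2 ^ s * (n ^ s * q ^ e) * (1 + Real.log n) ^ (ac n q * e) :=
          le_mul_of_one_le_left (by positivity) f1
  · push Not at hle
    have hac : ac n q = Real.log (1 / q) / Real.log n := by
      unfold ac
      rcases min_choice 1 (Real.log (1 / q) / Real.log n) with h | h
      · exfalso
        unfold ac at hle
        rw [h] at hle
        have : (s:ℝ) ≤ e := by exact_mod_cast hse
        linarith
      · exact h
    have hloglam : Real.log (n ^ s * q ^ e) = s * Real.log n - e * Real.log (1 / q) := by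
      rw [Real.log_mul (by positivity) (by positivity), Real.log_pow, Real.log_pow,
        one_div, Real.log_inv]
      ring
    have hlampos : 0 ≤ Real.log (n ^ s * q ^ e) := by
      rw [hloglam]
      rw [hac, div_mul_eq_mul_div, div_lt_iff₀ hx] at hle
      nlinarith
    have hTx : Real.log (1 + Real.log n) ≤ Real.log n := by
      have := Real.log_le_sub_one_of_pos hT0
      linarith
    have hsplit : (s:ℝ) = ac n q * e + Real.log (n ^ s * q ^ e) / Real.log n := by
      rw [hac, hloglam]; field_simp; ring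
    have h3 : (1 + Real.log n) ^ (Real.log (n ^ s * q ^ e) / Real.log n) ≤ n ^ s * q ^ e := by
      rw [Real.rpow_def_of_pos hT0]
      calc Real.exp (Real.log (1 + Real.log n) * (Real.log (n ^ s * q ^ e) / Real.log n))
          ≤ Real.exp (Real.log (n ^ s * q ^ e)) := by
            apply Real.exp_le_exp.2
            rw [mul_div_assoc', div_le_iff₀ hx]
            rw [mul_comm (Real.log (n ^ s * q ^ e)) (Real.log n)]
            exact mul_le_mul_of_nonneg_right hTx hlampos
        _ = n ^ s * q ^ e := Real.exp_log hlam0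
    have h2s : (1:ℝ) ≤ 2 ^ s := one_le_pow₀ (by norm_num)
    have hTp : 0 < (1 + Real.log n) ^ (ac n q * e) := Real.rpow_pos_of_pos hT0 _
    calc (1 + Real.log n) ^ (s:ℝ) = (1 + Real.log n) ^ (ac n q * e) *
          (1 + Real.log n) ^ (Real.log (n ^ s * q ^ e) / Real.log n) := by
          rw [← Real.rpow_add hT0, ← hsplit]
      _ ≤ (1 + Real.log n) ^ (ac n q * e) * (n ^ s * q ^ e) := by gcongr
      _ = 1 * (n ^ s * q ^ e) * (1 + Real.log n) ^ (ac n q * e) := by ring
      _ ≤ 2 ^ s * (n ^ s * q ^ e) * (1 + Real.log n) ^ (ac n q * e) := by gcongr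

lemma caseB {T lam : ℝ} (hT1 : 1 ≤ T) (hlam0 : 0 < lam) (s e r D : ℕ) (hs : 1 ≤ s) (b : ℝ)
    (f3 : r ≤ e) (hr1 : 1 ≤ r)
    (hkey : T ^ (s:ℝ) ≤ 2 ^ s * lam * T ^ b)
    (hcase : (D : ℝ) ≤ r * (T - 1) + Real.log 2) :
    D * (12 ^ s * Real.exp e * T ^ (s - 1)) ≤
      lam * (2 ^ s * Ac ^ s) * (2 ^ e * Real.exp e * T ^ b) := by
  have hT0 : 0 < T := by linarith
  have hAc := Ac_pos
  have hDT : (D : ℝ) ≤ 2 ^ e * T := by
    have h1 : (r:ℝ) ≤ 2 ^ e := by
      have : r ≤ 2 ^ e := f3.trans (Nat.lt_two_pow_self).le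
      exact_mod_cast this
    have h2 := log_two_le_one
    have hr' : (1:ℝ) ≤ r := by exact_mod_cast hr1
    calc (D:ℝ) ≤ r * (T - 1) + Real.log 2 := hcase
      _ ≤ r * (T - 1) + r := by linarith
      _ = r * T := by ring
      _ ≤ 2 ^ e * T := by gcongr
  have h12 : (12:ℝ) ^ s ≤ Ac ^ s := by
    apply pow_le_pow_left₀ (by norm_num)
    unfold Ac
    have : (1:ℝ) ≤ Real.exp 2 := Real.one_le_exp (by norm_num)
    linarith
  have hTT : T * T ^ (s - 1) = T ^ (s:ℝ) := by
    rw [Real.rpow_natCast, ← pow_succ']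
    congr 1
    omega
  have hTb : 0 < T ^ b := Real.rpow_pos_of_pos hT0 b
  have hE := Real.exp_pos (e:ℝ)
  calc (D : ℝ) * (12 ^ s * Real.exp e * T ^ (s - 1))
      ≤ (2 ^ e * T) * (12 ^ s * Real.exp e * T ^ (s - 1)) := by gcongr
    _ = 12 ^ s * (2 ^ e * Real.exp e) * (T * T ^ (s - 1)) := by ring
    _ = 12 ^ s * (2 ^ e * Real.exp e) * T ^ (s:ℝ) := by rw [hTT]
    _ ≤ Ac ^ s * (2 ^ e * Real.exp e) * (2 ^ s * lam * T ^ b) := by gcongr
    _ = _ := by ring

lemma num_step (hn : 2 ≤ n) (hq : 0 < q) (hq1 : q < 1) (s e r D : ℕ) (hs : 1 ≤ s)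
    (f1 : 1 ≤ (2 * n) ^ s * q ^ e)
    (f2 : (D.factorial : ℝ) ≤ 2 * n ^ r * (n ^ s * q ^ e) ^ D)
    (f3 : r ≤ e) (f4 : s ≤ e + 1) (f5 : 1 ≤ r → s ≤ e)
    (f6 : ((s - 1 : ℕ) : ℝ) * Real.log n ≤ e * Real.log (1 / q)) :
    (D : ℝ) * (s : ℝ) ^ 2 * Mc n q ^ (s - 1) ≤ (2 * n) ^ s * q ^ e * Ac ^ s * Gc n q ^ e := by
  have hx : 0 < Real.log n := Real.log_pos (by linarith)
  have hn0 : 0 < n := by linarith
  have hT1 : 1 ≤ 1 + Real.log n := by linarith
  have hlam0 : 0 < n ^ s * q ^ e := by positivity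
  have h2n : (2 * n) ^ s * q ^ e = 2 ^ s * (n ^ s * q ^ e) := by rw [mul_pow]; ring
  have hmain := Mc_pow_le hn hq hq1 s e D f6
  have hxe : n ^ r = Real.exp (r * Real.log n) := by
    rw [← Real.log_pow, Real.exp_log (by positivity)]
  have hAc := Ac_pos
  have hgoal : (2 * n) ^ s * q ^ e * Ac ^ s * Gc n q ^ e =
      (n ^ s * q ^ e) * (2 ^ s * Ac ^ s) *
        (2 ^ e * Real.exp e * (1 + Real.log n) ^ (ac n q * e)) := by
    rw [h2n, Gc_pow hn]; ring
  rw [hxe] at f2
  rw [hgoal]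
  refine hmain.trans ?_
  rcases disjoint_bound hlam0 D r hx.le f2 with hcase | hcase
  · exact caseA hT1 hlam0 s e D hs _ (exponent_le hn s e hs f4 f6) hcase
  · by_cases hD : D = 0
    · subst hD
      simp only [Nat.cast_zero, zero_mul]
      have := Real.rpow_pos_of_pos (show 0 < 1 + Real.log n by linarith) (ac n q * e)
      positivity
    · have hD1 : (1:ℝ) ≤ D := by exact_mod_cast Nat.one_le_iff_ne_zero.2 hD
      have hr1 : 1 ≤ r := by
        by_contra hr
        have hr0 : r = 0 := by omega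
        have h2 : Real.log 2 < 1 := by
          have := Real.log_two_lt_d9
          linarith
        rw [hr0] at hcase
        simp only [Nat.cast_zero, zero_mul, zero_add] at hcase
        linarith
      have hse := f5 hr1
      refine caseB hT1 hlam0 s e r D hs _ f3 hr1 (keyB hn hq s e (h2n ▸ f1) hse) ?_
      rw [add_sub_cancel_left]
      exact hcase

end

/-- `n^u ≤ e^u (n)_u` -/
lemma pow_le_exp_mul_descFactorial : ∀ (u n : ℕ), u ≤ n →
    (n : ℝ) ^ u ≤ Real.exp u * (n.descFactorial u : ℝ) := by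
  intro u
  induction u with
  | zero => intro n _; simp
  | succ u ih =>
    intro n hn
    obtain ⟨m, rfl⟩ : ∃ m, n = m + 1 := ⟨n - 1, by omega⟩
    have hum : u ≤ m := by omega
    have h1 := ih m hum
    rw [Nat.succ_descFactorial_succ]
    push_cast
    have h2 : ((m:ℝ) + 1) ^ u ≤ Real.exp 1 * (m:ℝ) ^ u := by
      rcases Nat.eq_zero_or_pos m with hm | hm
      · subst hm
        have : u = 0 := by omega
        subst this
        simp
      · have hm' : (0:ℝ) < m := by exact_mod_cast hm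
        have h3 : (m:ℝ) + 1 = m * (1 + 1 / m) := by field_simp
        rw [h3, mul_pow, mul_comm]
        apply mul_le_mul_of_nonneg_right _ (by positivity)
        calc (1 + 1 / (m:ℝ)) ^ u ≤ (Real.exp (1 / m)) ^ u := by
              apply pow_le_pow_left₀ (by positivity)
              have := Real.add_one_le_exp (1 / (m:ℝ))
              linarith
          _ = Real.exp (u * (1 / m)) := by rw [← Real.exp_nat_mul]
          _ ≤ Real.exp 1 := by
              apply Real.exp_le_exp.2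
              rw [mul_one_div, div_le_one hm']
              exact_mod_cast hum
    calc ((m:ℝ) + 1) ^ (u + 1) = (m + 1) * ((m:ℝ) + 1) ^ u := by rw [pow_succ]; ring
      _ ≤ (m + 1) * (Real.exp 1 * (m:ℝ) ^ u) := by gcongr
      _ ≤ (m + 1) * (Real.exp 1 * (Real.exp u * (m.descFactorial u : ℝ))) := by gcongr
      _ = Real.exp (u + 1) * ((m + 1) * (m.descFactorial u : ℝ)) := by
          rw [Real.exp_add]; ring

end Vale.Agent.P064
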