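import Vale.Agent.P064.Emb

/-! The uniform measure on the copies of `H` in `K_n` is spread. -/

namespace Vale.Agent.P064

open Finset SimpleGraph

section spread

variable {n : ℕ}

/-- the vertices covered by `U` -/
noncomputable def supp (U : Finset (Sym2 (Fin n))) : Finset (Fin n) := by
  classical
  exact univ.filter (fun v => ∃ e ∈ U, v ∈ e)

lemma mem_supp {U : Finset (Sym2 (Fin n))} {v : Fin n} :
    v ∈ supp U ↔ ∃ e ∈ U, v ∈ e := by
  unfold supp
  simp

lemma card_supp_le (U : Finset (Sym2 (Fin n))) : #(supp U) ≤ 2 * #U := by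
  classical
  have h1 : supp U ⊆ U.biUnion (fun e => univ.filter (fun v => v ∈ e)) := by
    intro v hv
    rw [mem_supp] at hv
    obtain ⟨e, he, hve⟩ := hv
    rw [Finset.mem_biUnion]
    exact ⟨e, he, by simp [hve]⟩
  calc #(supp U) ≤ #(U.biUnion (fun e => univ.filter (fun v => v ∈ e))) :=
        Finset.card_le_card h1
    _ ≤ ∑ e ∈ U, #(univ.filter (fun v => v ∈ e)) := Finset.card_biUnion_le
    _ ≤ ∑ e ∈ U, 2 := by
        apply Finset.sum_le_sum
        intro e _
        induction e using Sym2.ind with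
        | _ a b =>
          have : univ.filter (fun v => v ∈ s(a, b)) ⊆ {a, b} := by
            intro v hv
            rw [Finset.mem_filter, Sym2.mem_iff] at hv
            simp only [Finset.mem_insert, Finset.mem_singleton]
            exact hv.2
          exact (Finset.card_le_card this).trans Finset.card_le_two
    _ = 2 * #U := by rw [Finset.sum_const, smul_eq_mul, mul_comm]

/-- the graph with edge set `U` on its support -/
def suppG (U : Finset (Sym2 (Fin n))) (hU : ∀ e ∈ U, ¬ e.IsDiag) : SimpleGraph (supp U) where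
  Adj a b := s((a : Fin n), (b : Fin n)) ∈ U
  symm := ⟨fun a b h => by rw [Sym2.eq_swap]; exact h⟩
  loopless := ⟨fun a h => hU _ h (by simp)⟩

open Classical in
lemma card_suppG (U : Finset (Sym2 (Fin n))) (hU : ∀ e ∈ U, ¬ e.IsDiag) :
    #(suppG U hU).edgeFinset = #U := by
  rw [← Finset.card_image_of_injective _ (Sym2.map.injective Subtype.val_injective)]
  congr 1
  ext e
  rw [Finset.mem_image]
  constructor
  · rintro ⟨e', he', rfl⟩
    induction e' using Sym2.ind with
    | _ a b =>
      rw [mem_ef, SimpleGraph.mem_edgeSet] at he'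
      rw [Sym2.map_mk]
      exact he'
  · intro he
    induction e using Sym2.ind with
    | _ a b =>
      have ha : a ∈ supp U := mem_supp.2 ⟨_, he, by simp⟩
      have hb : b ∈ supp U := mem_supp.2 ⟨_, he, by simp⟩
      refine ⟨s(⟨a, ha⟩, ⟨b, hb⟩), ?_, by rw [Sym2.map_mk]⟩
      rw [mem_ef, SimpleGraph.mem_edgeSet]
      exact he

/-- extending an injection to a permutation -/
lemma exists_perm_extend (S : Finset (Fin n)) (τ : S ↪ Fin n) :
    ∃ π : Equiv.Perm (Fin n), ∀ s : S, π s = τ s := by
  classical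
  let e : {x // x ∈ S} ≃ {x // x ∈ Set.range τ} := Equiv.ofInjective τ τ.injective
  refine ⟨Equiv.extendSubtype (p := fun x => x ∈ S) (q := fun x => x ∈ Set.range τ) e, ?_⟩
  intro s
  rw [Equiv.extendSubtype_apply_of_mem (p := fun x => x ∈ S) (q := fun x => x ∈ Set.range τ) e s s.2]
  rfl

variable {V : Type*} [Fintype V] [DecidableEq V]

/-- injections -/
noncomputable def inj (V : Type*) [Fintype V] [DecidableEq V] (n : ℕ) : Finset (V → Fin n) := by
  classical
  exact univ.filter (fun σ => Function.Injective σ)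

lemma mem_inj {σ : V → Fin n} : σ ∈ inj V n ↔ Function.Injective σ := by
  unfold inj; simp

/-- injections whose image contains `U` -/
noncomputable def injU (H : SimpleGraph V) (U : Finset (Sym2 (Fin n))) : Finset (V → Fin n) := by
  classical
  exact (inj V n).filter (fun σ => U ⊆ imE H σ)

lemma mem_injU {H : SimpleGraph V} {U : Finset (Sym2 (Fin n))} {σ : V → Fin n} :
    σ ∈ injU H U ↔ Function.Injective σ ∧ U ⊆ imE H σ := by
  unfold injU
  rw [Finset.mem_filter, mem_inj]

open Classical in
lemma injU_card (H : SimpleGraph V) [Nonempty V] (U : Finset (Sym2 (Fin n)))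
    (hU : ∀ e ∈ U, ¬ e.IsDiag) :
    #(injU H U) * n.descFactorial (#(supp U)) ≤ #(embs (suppG U hU) H) * #(inj V n) := by
  have hcard : Fintype.card (supp U ↪ Fin n) = n.descFactorial (#(supp U)) := by
    rw [Fintype.card_embedding_eq, Fintype.card_fin, Fintype.card_coe]
  rw [← hcard, ← Finset.card_univ, ← Finset.card_product, ← Finset.card_product]
  choose π hπ using fun τ : supp U ↪ Fin n => exists_perm_extend (supp U) τ
  have hrange : ∀ σ ∈ injU H U, ∀ s : supp U, σ (Function.invFun σ s) = s := by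
    intro σ hσ s
    rw [mem_injU] at hσ
    apply Function.invFun_eq
    obtain ⟨e, he, hse⟩ := mem_supp.1 s.2
    have h1 := hσ.2 he
    unfold imE at h1
    rw [Finset.mem_image] at h1
    obtain ⟨e', _, rfl⟩ := h1
    rw [Sym2.mem_map] at hse
    obtain ⟨y, _, hy⟩ := hse
    exact ⟨y, hy⟩
  apply Finset.card_le_card_of_injOn
    (fun x => ((fun s : supp U => Function.invFun x.1 (s : Fin n)), fun v => π x.2 (x.1 v)))
  · rintro ⟨σ, τ⟩ hx
    rw [Finset.mem_coe, Finset.mem_product] at hx ⊢
    have hσ := hx.1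
    simp only at hσ ⊢
    have hr := hrange σ hσ
    rw [mem_injU] at hσ
    refine ⟨?_, ?_⟩
    · rw [mem_embs]
      refine ⟨?_, ?_⟩
      · intro a b hab
        simp only at hab
        apply Subtype.ext
        rw [← hr a, ← hr b, hab]
      · intro a b hab
        have h1 : s((a : Fin n), (b : Fin n)) ∈ U := hab
        have h2 := hσ.2 h1
        unfold imE at h2
        rw [Finset.mem_image] at h2
        obtain ⟨e', he', he''⟩ := h2
        induction e' using Sym2.ind with
        | _ x y =>
          rw [mem_ef, SimpleGraph.mem_edgeSet] at he'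
          rw [Sym2.map_mk, Sym2.eq_iff] at he''
          rcases he'' with ⟨h3, h4⟩ | ⟨h3, h4⟩
          · have h5 : Function.invFun σ (a : Fin n) = x := by
              apply hσ.1; rw [hr a, h3]
            have h6 : Function.invFun σ (b : Fin n) = y := by
              apply hσ.1; rw [hr b, h4]
            rw [h5, h6]; exact he'
          · have h5 : Function.invFun σ (a : Fin n) = y := by
              apply hσ.1; rw [hr a, h4]
            have h6 : Function.invFun σ (b : Fin n) = x := by
              apply hσ.1; rw [hr b, h3]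
            rw [h5, h6]; exact he'.symm
    · rw [mem_inj]
      exact (π τ).injective.comp hσ.1
  · rintro ⟨σ, τ⟩ hx ⟨σ', τ'⟩ hy hxy
    rw [Finset.mem_coe, Finset.mem_product] at hx hy
    simp only [Prod.mk.injEq] at hxy hx hy ⊢
    have hr := hrange σ hx.1
    have hr' := hrange σ' hy.1
    obtain ⟨h1, h2⟩ := hxy
    have hττ' : τ = τ' := by
      ext s
      have h3 : Function.invFun σ (s : Fin n) = Function.invFun σ' (s : Fin n) := congrFun h1 s
      have h4 : π τ (σ (Function.invFun σ (s : Fin n))) =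
          π τ' (σ' (Function.invFun σ (s : Fin n))) := congrFun h2 _
      rw [hr s] at h4
      rw [h3, hr' s] at h4
      rw [hπ, hπ] at h4
      rw [h4]
    subst hττ'
    refine ⟨?_, rfl⟩
    funext v
    exact (π τ).injective (congrFun h2 v)

/-- the spread parameter -/
noncomputable def pp (n q : ℝ) : ℝ := (2 * Real.exp 1 * Ac) ^ 2 * (q * Gc n q)

lemma spread (H : SimpleGraph V) [Nonempty V] (hn : 2 ≤ n) {q : ℝ} (hq : 0 < q) (hq1 : q < 1)
    (hH : ∀ F : H.Subgraph, 1 / 2 ≤ expCopies n q F.coe) (U : Finset (Sym2 (Fin n))) :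
    (#(injU H U) : ℝ) ≤ (pp n q) ^ (#U) * #(inj V n) := by
  classical
  have hn' : (2:ℝ) ≤ n := by exact_mod_cast hn
  have hn0 : (0:ℝ) < n := by linarith
  have hAc := Ac_pos
  have hGc := Gc_pos (q := q) hn'
  have hpp : 0 < pp n q := by unfold pp; positivity
  by_cases hU : ∀ e ∈ U, ¬ e.IsDiag
  · have h1 := injU_card H U hU
    have h2 := embs_card_le (suppG U hU) H hn hq hq1 hH
    rw [Fintype.card_coe] at h2
    have h2' : (#(embs (suppG U hU) H) : ℝ) ≤
        (2 * n * Ac) ^ (#(supp U)) * (q * Gc n q) ^ (#U) := by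
      have h3 := card_suppG U hU
      convert h2 using 3
      rw [← h3]
    have hun : #(supp U) ≤ n := by
      have := Finset.card_le_univ (supp U)
      rwa [Fintype.card_fin] at this
    have h4 := pow_le_exp_mul_descFactorial (#(supp U)) n hun
    have h1' : (#(injU H U) : ℝ) * (n.descFactorial (#(supp U)) : ℝ) ≤
        #(embs (suppG U hU) H) * #(inj V n) := by
      exact_mod_cast h1
    set u := #(supp U) with hu
    have h5 : (#(injU H U) : ℝ) * (n:ℝ) ^ u ≤
        (Real.exp u * ((2 * n * Ac) ^ u * (q * Gc n q) ^ (#U)) * #(inj V n)) := by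
      calc (#(injU H U) : ℝ) * (n:ℝ) ^ u ≤ #(injU H U) *
          (Real.exp u * (n.descFactorial u : ℝ)) := by gcongr
        _ = Real.exp u * (#(injU H U) * (n.descFactorial u : ℝ)) := by ring
        _ ≤ Real.exp u * (#(embs (suppG U hU) H) * #(inj V n)) := by gcongr
        _ ≤ Real.exp u * (((2 * n * Ac) ^ u * (q * Gc n q) ^ (#U)) * #(inj V n)) := by gcongr
        _ = _ := by ring
    have hnu : 0 < (n:ℝ) ^ u := by positivity
    have h6 : (#(injU H U) : ℝ) ≤
        (2 * Real.exp 1 * Ac) ^ u * (q * Gc n q) ^ (#U) * #(inj V n) := by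
      have h7 : Real.exp u * ((2 * n * Ac) ^ u * (q * Gc n q) ^ (#U)) * #(inj V n) =
          ((2 * Real.exp 1 * Ac) ^ u * (q * Gc n q) ^ (#U) * #(inj V n)) * (n:ℝ) ^ u := by
        have h8 : Real.exp u = (Real.exp 1) ^ u := by
          rw [← Real.exp_nat_mul, mul_one]
        rw [h8, mul_pow, mul_pow, mul_pow, mul_pow]; ring
      rw [h7] at h5
      exact le_of_mul_le_mul_right h5 hnu
    refine h6.trans ?_
    unfold pp
    rw [mul_pow ((2 * Real.exp 1 * Ac) ^ 2)]
    apply mul_le_mul_of_nonneg_right _ (by positivity)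
    apply mul_le_mul_of_nonneg_right _ (by positivity)
    rw [← pow_mul]
    apply pow_le_pow_right₀ _ (card_supp_le U)
    unfold Ac
    have h9 : (1:ℝ) ≤ Real.exp 1 := Real.one_le_exp (by norm_num)
    have h10 : (1:ℝ) ≤ Real.exp 2 := Real.one_le_exp (by norm_num)
    nlinarith
  · push Not at hU
    obtain ⟨e, he, hed⟩ := hU
    have h1 : injU H U = ∅ := by
      rw [Finset.eq_empty_iff_forall_notMem]
      intro σ hσ
      rw [mem_injU] at hσ
      have h2 := imE_subset_allE H hσ.1 (hσ.2 he)
      unfold allE at h2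
      rw [mem_ef] at h2
      exact SimpleGraph.not_isDiag_of_mem_edgeSet _ h2 hed
    rw [h1]
    simp only [Finset.card_empty, Nat.cast_zero]
    positivity

lemma cover_cost (H : SimpleGraph V) [Nonempty V] (hn : 2 ≤ n) (hVn : Fintype.card V ≤ n) {q : ℝ}
    (hq : 0 < q) (hq1 : q < 1)
    (hH : ∀ F : H.Subgraph, 1 / 2 ≤ expCopies n q F.coe)
    (G : Finset (Finset (Sym2 (Fin n))))
    (hG : ∀ σ ∈ inj V n, ∃ U ∈ G, U ⊆ imE H σ) : 1 ≤ ∑ U ∈ G, (pp n q) ^ (#U) := by
  classical
  have h1 : inj V n ⊆ G.biUnion (fun U => injU H U) := by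
    intro σ hσ
    obtain ⟨U, hU, hUσ⟩ := hG σ hσ
    rw [Finset.mem_biUnion]
    exact ⟨U, hU, mem_injU.2 ⟨mem_inj.1 hσ, hUσ⟩⟩
  have h2 : (#(inj V n) : ℝ) ≤ ∑ U ∈ G, (#(injU H U) : ℝ) := by
    have := (Finset.card_le_card h1).trans Finset.card_biUnion_le
    exact_mod_cast this
  have h3 : (#(inj V n) : ℝ) ≤ (∑ U ∈ G, (pp n q) ^ (#U)) * #(inj V n) := by
    refine h2.trans ?_
    rw [Finset.sum_mul]
    exact Finset.sum_le_sum (fun U _ => spread H hn hq hq1 hH U)
  have h4 : (0:ℝ) < #(inj V n) := by
    have h5 : (inj V n).Nonempty := by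
      obtain ⟨f⟩ : Nonempty (V ↪ Fin n) :=
        Function.Embedding.nonempty_of_card_le (by rw [Fintype.card_fin]; exact hVn)
      exact ⟨f, mem_inj.2 f.injective⟩
    exact_mod_cast Finset.card_pos.2 h5
  by_contra hcon
  push Not at hcon
  have := mul_lt_mul_of_pos_right hcon h4
  linarith

end spread

end Vale.Agent.P064
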