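import Vale.Agent.P064.Bridge
import Vale.Agent.P064.Numeric

/-! The two consequences of the expectation condition that are used. -/

namespace Vale.Agent.P064

open Finset SimpleGraph

section star1

variable {W : Type*} [Fintype W] [DecidableEq W] {H : SimpleGraph W} [DecidableRel H.Adj]

lemma star1 {n : ℕ} {q : ℝ} (hq : 0 ≤ q) (hq1 : q ≤ 1)
    (hH : ∀ F : H.Subgraph, 1 / 2 ≤ expCopies n q F.coe)
    (A : Finset W) (E : Finset (Sym2 W)) (hE : ∀ e ∈ E, e ∈ H.edgeFinset)
    (hEA : ∀ e ∈ E, ∀ v ∈ e, v ∈ A) : 1 / 2 ≤ (n : ℝ) ^ (#A) * q ^ (#E) := by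
  classical
  let J : SimpleGraph A :=
    { Adj := fun a b => s((a : W), (b : W)) ∈ E
      symm := ⟨fun a b h => by rw [Sym2.eq_swap]; exact h⟩
      loopless := ⟨fun a h => by
        have := hE _ h
        rw [SimpleGraph.mem_edgeFinset, SimpleGraph.mem_edgeSet] at this
        exact H.irrefl this⟩ }
  have hJ : J.IsContained H := by
    refine ⟨⟨⟨Subtype.val, ?_⟩, Subtype.val_injective⟩⟩
    intro a b hab
    have := hE _ hab
    rw [SimpleGraph.mem_edgeFinset, SimpleGraph.mem_edgeSet] at this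
    exact this
  have hm : ∃ E' : Finset (Sym2 A), (E' : Set (Sym2 A)) = J.edgeSet ∧ #E' = #E := by
    refine ⟨univ.filter (fun e => Sym2.map Subtype.val e ∈ E), ?_, ?_⟩
    · ext e
      induction e using Sym2.ind with
      | _ a b =>
        simp only [Finset.coe_filter, Finset.mem_univ, true_and, Set.mem_ofPred_eq,
          Sym2.map_mk, SimpleGraph.mem_edgeSet, J]
    · rw [← Finset.card_image_of_injective _ (Sym2.map.injective Subtype.val_injective)]
      congr 1
      ext e
      rw [Finset.mem_image]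
      constructor
      · rintro ⟨e', he', rfl⟩
        exact (Finset.mem_filter.1 he').2
      · intro he
        induction e using Sym2.ind with
        | _ a b =>
          have ha : a ∈ A := hEA _ he a (by simp)
          have hb : b ∈ A := hEA _ he b (by simp)
          refine ⟨s(⟨a, ha⟩, ⟨b, hb⟩), ?_, by rw [Sym2.map_mk]⟩
          rw [Finset.mem_filter]
          refine ⟨Finset.mem_univ _, ?_⟩
          rw [Sym2.map_mk]
          exact he
  have h := star_general hq hq1 hH J hJ hm (ι := Unit) (fun _ => SimpleGraph.Iso.refl)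
    (fun _ _ _ => rfl)
  rw [Fintype.card_coe] at h
  simp only [Fintype.card_unit, Nat.cast_one] at h
  linarith

end star1

section star2

variable {V W : Type*} [Fintype V] [DecidableEq V] [Fintype W] [DecidableEq W]
  (F : SimpleGraph V) [DecidableRel F.Adj] (H : SimpleGraph W) [DecidableRel H.Adj]

/-- the graph formed by disjoint extensions -/
def sunG (B Q : Finset V) (D : Finset (V → W)) : SimpleGraph (B ⊕ (D × Q)) where
  Adj x y := match x, y with
    | Sum.inl _, Sum.inl _ => False
    | Sum.inl u, Sum.inr z => F.Adj u z.2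
    | Sum.inr z, Sum.inl u => F.Adj z.2 u
    | Sum.inr z, Sum.inr z' => z.1 = z'.1 ∧ F.Adj z.2 z'.2
  symm := ⟨by
    rintro (u | z) (u' | z') h
    · exact h
    · exact SimpleGraph.Adj.symm h
    · exact SimpleGraph.Adj.symm h
    · exact ⟨h.1.symm, SimpleGraph.Adj.symm h.2⟩⟩
  loopless := ⟨by
    rintro (u | z) h
    · exact h
    · exact F.irrefl h.2⟩

/-- permuting the extensions -/
def sunPerm (B Q : Finset V) (D : Finset (V → W)) (π : Equiv.Perm D) :
    sunG F B Q D ≃g sunG F B Q D where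
  toEquiv := Equiv.sumCongr (Equiv.refl _) (Equiv.prodCongr π (Equiv.refl _))
  map_rel_iff' := by
    rintro (u | z) (u' | z')
    · exact Iff.rfl
    · exact Iff.rfl
    · exact Iff.rfl
    · simp [sunG]

lemma sun_contained {U U' : Finset V} (φ : V → W) (D : Finset (V → W))
    (hD : D ⊆ agr F H U φ) (hPD : PD (U' \ U) D) (hDne : D.Nonempty) :
    (sunG F (bdry F U U') (U' \ U) D).IsContained H := by
  classical
  obtain ⟨f₀, hf₀⟩ := hDne
  have hf₀' := hD hf₀
  rw [mem_agr, mem_embs] at hf₀'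
  refine ⟨⟨⟨Sum.elim (fun u => φ u) (fun x => (x.1 : V → W) x.2), ?_⟩, ?_⟩⟩
  · rintro (u | ⟨⟨f, hf⟩, z⟩) (u' | ⟨⟨g, hg⟩, z'⟩) h
    · exact absurd h id
    · have hg' := hD hg
      rw [mem_agr, mem_embs] at hg'
      have hu : (u : V) ∈ U := (Finset.mem_filter.1 u.2).1
      change H.Adj (φ u) (g z')
      rw [← hg'.2 u hu]
      exact hg'.1.2 _ _ h
    · have hf' := hD hf
      rw [mem_agr, mem_embs] at hf'
      have hu : (u' : V) ∈ U := (Finset.mem_filter.1 u'.2).1
      change H.Adj (f z) (φ u')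
      rw [← hf'.2 u' hu]
      exact hf'.1.2 _ _ h
    · have hf' := hD hf
      rw [mem_agr, mem_embs] at hf'
      obtain ⟨h1, h2⟩ := h
      simp only [Subtype.mk.injEq] at h1
      subst h1
      exact hf'.1.2 _ _ h2
  · rintro (u | ⟨⟨f, hf⟩, z⟩) (u' | ⟨⟨g, hg⟩, z'⟩) h
    · have hu : (u : V) ∈ U := (Finset.mem_filter.1 u.2).1
      have hu' : (u' : V) ∈ U := (Finset.mem_filter.1 u'.2).1
      change φ u = φ u' at h
      rw [← hf₀'.2 u hu, ← hf₀'.2 u' hu'] at h
      rw [Subtype.ext (hf₀'.1.1 h)]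
    · exfalso
      have hg' := hD hg
      rw [mem_agr, mem_embs] at hg'
      have hu : (u : V) ∈ U := (Finset.mem_filter.1 u.2).1
      change φ u = g z' at h
      rw [← hg'.2 u hu] at h
      have h2 := hg'.1.1 h
      have h3 := z'.2
      rw [← h2] at h3
      exact (Finset.mem_sdiff.1 h3).2 hu
    · exfalso
      have hf' := hD hf
      rw [mem_agr, mem_embs] at hf'
      have hu : (u' : V) ∈ U := (Finset.mem_filter.1 u'.2).1
      change f z = φ u' at h
      rw [← hf'.2 u' hu] at h
      have h2 := hf'.1.1 h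
      have h3 := z.2
      rw [h2] at h3
      exact (Finset.mem_sdiff.1 h3).2 hu
    · change f z = g z' at h
      by_cases hfg : f = g
      · subst hfg
        have hf' := hD hf
        rw [mem_agr, mem_embs] at hf'
        have h2 := hf'.1.1 h
        have h3 : z = z' := Subtype.ext h2
        subst h3
        rfl
      · exfalso
        have h1 := hPD f hf g hg hfg
        rw [Finset.disjoint_left] at h1
        apply h1 (Finset.mem_image_of_mem f z.2)
        rw [h]
        exact Finset.mem_image_of_mem g z'.2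

/-- the placement of the step in the sun graph -/
noncomputable def sunTau (B Q : Finset V) (D : Finset (V → W)) (q0 : Q) (f : D) (v : V) :
    B ⊕ (D × Q) := by
  classical
  exact if h : v ∈ Q then Sum.inr (f, ⟨v, h⟩) else
    if h' : v ∈ B then Sum.inl ⟨v, h'⟩ else Sum.inr (f, q0)

/-- projection -/
def sunSigma (B Q : Finset V) (D : Finset (V → W)) : B ⊕ (D × Q) → V :=
  Sum.elim (fun u => u) (fun z => z.2)

lemma sunSigma_tau (B Q : Finset V) (D : Finset (V → W)) (q0 : Q) (f : D) {v : V}
    (hv : v ∈ Q ∨ v ∈ B) : sunSigma B Q D (sunTau B Q D q0 f v) = v := by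
  classical
  unfold sunTau sunSigma
  by_cases h : v ∈ Q
  · simp [h]
  · have h' : v ∈ B := hv.resolve_left h
    simp [h, h']

lemma touch_verts {U U' : Finset V} {e : Sym2 V}
    (he : e ∈ touch F U' (U' \ U)) : ∀ v ∈ e, v ∈ U' \ U ∨ v ∈ bdry F U U' := by
  classical
  intro v hv
  unfold touch at he
  rw [Finset.mem_filter] at he
  obtain ⟨he1, he2, z, hz, hzQ⟩ := he
  by_cases hvQ : v ∈ U' \ U
  · exact Or.inl hvQ
  · right
    have hvU : v ∈ U := by
      by_contra h
      exact hvQ (Finset.mem_sdiff.2 ⟨he2 v hv, h⟩)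
    have hne : v ≠ z := by
      rintro rfl
      exact hvQ hzQ
    have hes : e = s(v, z) := (Sym2.mem_and_mem_iff hne).1 ⟨hv, hz⟩
    rw [hes, SimpleGraph.mem_edgeFinset, SimpleGraph.mem_edgeSet] at he1
    unfold bdry
    rw [Finset.mem_filter]
    exact ⟨hvU, z, hzQ, he1⟩

lemma sun_edges {U' : Finset V} (B Q : Finset V)
    (hBQ : ∀ e ∈ touch F U' Q, ∀ v ∈ e, v ∈ Q ∨ v ∈ B) {q0 : V} (hq0 : q0 ∈ Q)
    (D : Finset (V → W))
    (E' : Finset (Sym2 (B ⊕ (D × Q))))
    (hE' : (E' : Set (Sym2 (B ⊕ (D × Q)))) = (sunG F B Q D).edgeSet) :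
    #D * #(touch F U' Q) ≤ #E' := by
  classical
  have h1 : #D * #(touch F U' Q) =
      #((univ : Finset D) ×ˢ (touch F U' Q)) := by
    rw [Finset.card_product, Finset.card_univ, Fintype.card_coe]
  rw [h1]
  apply Finset.card_le_card_of_injOn
    (fun x => Sym2.map (sunTau B Q D ⟨q0, hq0⟩ x.1) x.2)
  · rintro ⟨f, e⟩ hx
    rw [Finset.mem_coe, Finset.mem_product] at hx
    have he := hx.2
    simp only at he
    have hv := hBQ e he
    change Sym2.map (sunTau B Q D ⟨q0, hq0⟩ f) e ∈ (E' : Set _)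
    rw [hE']
    induction e using Sym2.ind with
    | _ a b =>
      rw [Sym2.map_mk, SimpleGraph.mem_edgeSet]
      have ha := hv a (by simp)
      have hb := hv b (by simp)
      unfold touch at he
      rw [Finset.mem_filter] at he
      obtain ⟨he1, _, z, hz, hzQ⟩ := he
      rw [SimpleGraph.mem_edgeFinset, SimpleGraph.mem_edgeSet] at he1
      unfold sunTau
      by_cases haQ : a ∈ Q
      · by_cases hbQ : b ∈ Q
        · simp only [haQ, hbQ, dif_pos]
          exact ⟨rfl, he1⟩
        · have hbB : b ∈ B := hb.resolve_left hbQ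
          simp only [haQ, hbQ, hbB, dif_pos, dif_neg, not_false_iff]
          exact he1
      · have haB : a ∈ B := ha.resolve_left haQ
        by_cases hbQ : b ∈ Q
        · simp only [haQ, hbQ, haB, dif_pos, dif_neg, not_false_iff]
          exact he1
        · exfalso
          rw [Sym2.mem_iff] at hz
          rcases hz with h | h
          · exact haQ (h ▸ hzQ)
          · exact hbQ (h ▸ hzQ)
  · rintro ⟨f, e⟩ hx ⟨g, e'⟩ hy hxy
    rw [Finset.mem_coe, Finset.mem_product] at hx hy
    simp only at hxy hx hy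
    have hrec : ∀ (f : D) (e : Sym2 V), e ∈ touch F U' Q →
        Sym2.map (sunSigma B Q D) (Sym2.map (sunTau B Q D ⟨q0, hq0⟩ f) e) = e := by
      intro f e he
      rw [Sym2.map_map]
      have hv := hBQ e he
      induction e using Sym2.ind with
      | _ a b =>
        rw [Sym2.map_mk]
        have ha := hv a (by simp)
        have hb := hv b (by simp)
        simp only [Function.comp_apply]
        rw [sunSigma_tau B Q D ⟨q0, hq0⟩ f ha, sunSigma_tau B Q D ⟨q0, hq0⟩ f hb]
    have hee : e = e' := by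
      rw [← hrec f e hx.2, ← hrec g e' hy.2, hxy]
    subst hee
    have hfg : f = g := by
      have he := hx.2
      unfold touch at he
      rw [Finset.mem_filter] at he
      obtain ⟨_, _, z, hz, hzQ⟩ := he
      have h2 : sunTau B Q D ⟨q0, hq0⟩ f z ∈ Sym2.map (sunTau B Q D ⟨q0, hq0⟩ g) e := by
        rw [← hxy]
        exact Sym2.mem_map.2 ⟨z, hz, rfl⟩
      rw [Sym2.mem_map] at h2
      obtain ⟨y, _, hy2⟩ := h2
      unfold sunTau at hy2
      by_cases hyQ : y ∈ Q
      · simp only [hyQ, hzQ, dif_pos, Sum.inr.injEq, Prod.mk.injEq] at hy2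
        exact hy2.1.symm
      · by_cases hyB : y ∈ B
        · simp [hyQ, hzQ, hyB] at hy2
        · simp only [hyQ, hzQ, hyB, dif_pos, dif_neg, not_false_iff, Sum.inr.injEq,
            Prod.mk.injEq] at hy2
          exact hy2.1.symm
    rw [hfg]

lemma star2 {n : ℕ} (hn : 1 ≤ n) {q : ℝ} (hq : 0 ≤ q) (hq1 : q ≤ 1)
    (hH : ∀ F : H.Subgraph, 1 / 2 ≤ expCopies n q F.coe)
    {U U' : Finset V} (hUU' : U ⊂ U') (φ : V → W) (D : Finset (V → W))
    (hD : D ⊆ agr F H U φ) (hPD : PD (U' \ U) D) :
    ((#D).factorial : ℝ) ≤ 2 * (n : ℝ) ^ (#(bdry F U U')) *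
      ((n : ℝ) ^ (#(U' \ U)) * q ^ (#(touch F U' (U' \ U)))) ^ (#D) := by
  classical
  have hn' : (1:ℝ) ≤ n := by exact_mod_cast hn
  rcases Finset.eq_empty_or_nonempty D with hDe | hDne
  · subst hDe
    have h1 : (1:ℝ) ≤ (n:ℝ) ^ (#(bdry F U U')) := one_le_pow₀ hn'
    simp only [Finset.card_empty, Nat.factorial_zero, Nat.cast_one, pow_zero, mul_one]
    linarith
  · have hQne : (U' \ U).Nonempty := by
      rw [Finset.sdiff_nonempty]
      exact fun h => hUU'.2 h
    obtain ⟨q0, hq0⟩ := hQne
    set E' := (sunG F (bdry F U U') (U' \ U) D).edgeFinset with hE'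
    have hE'1 : (E' : Set (Sym2 (bdry F U U' ⊕ (D × (U' \ U : Finset V))))) =
      (sunG F (bdry F U U') (U' \ U) D).edgeSet := SimpleGraph.coe_edgeFinset _
    have h1 := star_general (n := n) hq hq1 hH (sunG F (bdry F U U') (U' \ U) D)
      (sun_contained F H φ D hD hPD hDne) ⟨E', hE'1, rfl⟩
      (fun π : Equiv.Perm D => sunPerm F (bdry F U U') (U' \ U) D π)
      (by
        intro π π' hππ'
        ext f
        have := hππ' (Sum.inr (f, ⟨q0, hq0⟩))
        simp only [sunPerm] at this
        change (Sum.inr (π f, ⟨q0, hq0⟩) : bdry F U U' ⊕ (D × (U' \ U : Finset V))) =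
          Sum.inr (π' f, ⟨q0, hq0⟩) at this
        simp only [Sum.inr.injEq, Prod.mk.injEq, and_true] at this
        rw [this])
    rw [Fintype.card_perm, Fintype.card_coe, Fintype.card_sum, Fintype.card_prod,
      Fintype.card_coe, Fintype.card_coe, Fintype.card_coe] at h1
    have h2 := sun_edges F (bdry F U U') (U' \ U) (fun e he => touch_verts F he) hq0 D E' hE'1
    have h3 : q ^ (#E') ≤ q ^ (#D * #(touch F U' (U' \ U))) := pow_le_pow_of_le_one hq hq1 h2
    calc ((#D).factorial : ℝ) ≤ 2 * ((n : ℝ) ^ (#(bdry F U U') + #D * #(U' \ U)) * q ^ (#E')) := h1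
      _ ≤ 2 * ((n : ℝ) ^ (#(bdry F U U') + #D * #(U' \ U)) *
          q ^ (#D * #(touch F U' (U' \ U)))) := by gcongr
      _ = _ := by
        rw [pow_add, mul_comm (#D) (#(U' \ U)), mul_comm (#D) (#(touch F U' (U' \ U))), pow_mul,
          pow_mul, mul_pow]
        ring

end star2

end Vale.Agent.P064
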